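import Mathlib
import Vale.Agent.H17.ThinTree

/-!
Thin trees in dense simple graphs (problem P061): definitions of the core development.

Core setting: finite vertex type `V`, finite edge type `E`, every edge `e` has two distinct
end points `a e`, `b e` (an arbitrary orientation of the multigraph).  A colouring
`f : V → V` encodes a partition of `V` (the parts are the nonempty fibres `part f c`).
-/

namespace Vale.Agent.H17.Dense

open Finset

variable {V E : Type} [Fintype V] [DecidableEq V] [Fintype E] [DecidableEq E]

/-- The colour class of the colour `c`. -/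
def part (f : V → V) (c : V) : Finset V := Finset.univ.filter fun v => f v = c

/-- The number of ordered pairs of `X ×ˢ Y` related by `R`. -/
def pairs (R : V → V → Prop) [DecidableRel R] (X Y : Finset V) : ℕ :=
  ((X ×ˢ Y).filter fun p => R p.1 p.2).card

/-- The potential of a colouring: `∑` over the ordered pairs `(u, v)` of equal colour of
`d - 2 n [R u v]`, where `n = |V|`. -/
def phi (R : V → V → Prop) [DecidableRel R] (d : ℕ) (f : V → V) : ℤ :=
  ∑ p : V × V, if f p.1 = f p.2 then
    ((d : ℤ) - 2 * (Fintype.card V : ℤ) * (if R p.1 p.2 then 1 else 0)) else 0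

/-- Adjacency of the edge family `(a, b)`. -/
def Adj (a b : E → V) (u v : V) : Prop := ∃ e, (a e = u ∧ b e = v) ∨ (a e = v ∧ b e = u)

noncomputable instance adjDecidable (a b : E → V) : DecidableRel (Adj a b) :=
  fun _ _ => Classical.propDecidable _

/-- Adjacency using only the edges of `F`. -/
def AdjIn (a b : E → V) (F : Finset E) (u v : V) : Prop :=
  ∃ e ∈ F, (a e = u ∧ b e = v) ∨ (a e = v ∧ b e = u)

/-- The edge `e` crosses the vertex set `S`. -/
def Cr (a b : E → V) (S : Finset V) (e : E) : Prop :=
  (a e ∈ S ∧ b e ∉ S) ∨ (b e ∈ S ∧ a e ∉ S)

noncomputable instance crDecidable (a b : E → V) (S : Finset V) : DecidablePred (Cr a b S) :=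
  fun _ => Classical.propDecidable _

/-- The inside degree of `v` in the edge set `F`: the number of edges of `F` at `v` whose two
ends have the same colour. -/
def ideg (a b : E → V) (f : V → V) (F : Finset E) (v : V) : ℕ :=
  (F.filter fun e => f (a e) = f (b e) ∧ (a e = v ∨ b e = v)).card

/-- The invariants of the growth process: `F` is a set of `|U| - 1` edges with both ends in
`U`, joining every vertex of `U` to `root`; every vertex lies on at most `D` inside edges of
`F`; inside every colour class met by `U` there are fewer edges of `F` than vertices of `U`;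
there are fewer cross edges in `F` than colours met by `U`. -/
structure Good (a b : E → V) (f : V → V) (D : ℕ) (root : V) (U : Finset V) (F : Finset E) :
    Prop where
  root_mem : root ∈ U
  ends_mem : ∀ e ∈ F, a e ∈ U ∧ b e ∈ U
  card_eq : F.card + 1 = U.card
  reach : ∀ u ∈ U, Relation.ReflTransGen (AdjIn a b F) root u
  deg_le : ∀ v, ideg a b f F v ≤ D
  inside_le : ∀ c, (U.filter fun u => f u = c).Nonempty →
    (F.filter fun e => f (a e) = c ∧ f (b e) = c).card + 1 ≤ (U.filter fun u => f u = c).card
  cross_le : (F.filter fun e => f (a e) ≠ f (b e)).card + 1 ≤ (U.image f).card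

end Vale.Agent.H17.Dense
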