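import Mathlib
import Vale.Agent.H17.Dense.Defs

/-! Row D9.  Every adjacent ordered pair `(u, w)` with `u ∈ part f c ∩ S`, `w ∈ part f c \ S`
has an edge `e` joining them (choose one); `e` has both ends of colour `c` and crosses `S`.
The choice is injective: the end of `e` in `S` is `u` and the other end is `w`. -/

namespace Vale.Agent.H17.Dense

open Finset

variable {V E : Type} [Fintype V] [DecidableEq V] [Fintype E] [DecidableEq E]

/-- D9 -/
theorem pairs_le_inside_cross (a b : E → V) (f : V → V) (S : Finset V) (c : V) :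
    pairs (Adj a b) (part f c ∩ S) (part f c \ S) ≤
      (Finset.univ.filter fun e => (f (a e) = c ∧ f (b e) = c) ∧ Cr a b S e).card := by
  classical
  unfold pairs
  let h : E → V × V := fun e => if a e ∈ S then (a e, b e) else (b e, a e)
  refine le_trans (Finset.card_le_card ?_) (Finset.card_image_le (f := h))
  intro p hp
  rw [Finset.mem_filter, Finset.mem_product, Finset.mem_inter, Finset.mem_sdiff] at hp
  obtain ⟨⟨⟨hpc, hpS⟩, hqc, hqS⟩, e, he⟩ := hp
  have hpc' : f p.1 = c := by simpa [part] using hpc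
  have hqc' : f p.2 = c := by simpa [part] using hqc
  rw [Finset.mem_image]
  refine ⟨e, ?_, ?_⟩
  · rw [Finset.mem_filter]
    rcases he with ⟨h1, h2⟩ | ⟨h1, h2⟩
    · exact ⟨Finset.mem_univ _, ⟨by rw [h1]; exact hpc', by rw [h2]; exact hqc'⟩,
        Or.inl ⟨by rw [h1]; exact hpS, by rw [h2]; exact hqS⟩⟩
    · exact ⟨Finset.mem_univ _, ⟨by rw [h1]; exact hqc', by rw [h2]; exact hpc'⟩,
        Or.inr ⟨by rw [h2]; exact hpS, by rw [h1]; exact hqS⟩⟩
  · rcases he with ⟨h1, h2⟩ | ⟨h1, h2⟩
    · have hin : a e ∈ S := by rw [h1]; exact hpS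
      show (if a e ∈ S then (a e, b e) else (b e, a e)) = p
      rw [if_pos hin]
      exact Prod.ext h1 h2
    · have hin : a e ∉ S := by rw [h1]; exact hqS
      show (if a e ∈ S then (a e, b e) else (b e, a e)) = p
      rw [if_neg hin]
      exact Prod.ext h2 h1

end Vale.Agent.H17.Dense
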