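import Mathlib
import Vale.Agent.H17.Dense.Defs

/-! Row D10.  `min_le_pairs`: `X = part f c ∩ S`, `W = part f c \ S = part f c \ X`.  If `X` or
`W` is empty the left side is `0`.  Otherwise `hsplit c X`: `d |X| |W| ≤ 2 n pairs R X W`;
`|X| |W| = min * max`, `2 max ≥ |X| + |W| = |part f c|`, and `d + 2 ≤ 2 |part f c|` (`hsize` at
an element of the class), so `d ≤ 4 max` and `d d min ≤ 4 d |X| |W| ≤ 8 n pairs R X W`.
`parts_card`: `|V| = ∑ c ∈ univ.image f, |part f c|` (`Finset.card_eq_sum_card_image`) and
every class of a used colour has `d + 2 ≤ 2 |part f c|`. -/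

namespace Vale.Agent.H17.Dense

open Finset

variable {V : Type} [Fintype V] [DecidableEq V]

/-- D10 -/
theorem min_le_pairs (R : V → V → Prop) [DecidableRel R] (f : V → V) (d : ℕ)
    (hsplit : ∀ (c : V) (U : Finset V), U ⊆ part f c → U.Nonempty → U ≠ part f c →
      d * (U.card * (part f c \ U).card) ≤ 2 * Fintype.card V * pairs R U (part f c \ U))
    (hsize : ∀ v : V, d + 2 ≤ 2 * (part f (f v)).card) (S : Finset V) (c : V) :
    d * d * min (part f c ∩ S).card (part f c \ S).card ≤
      8 * Fintype.card V * pairs R (part f c ∩ S) (part f c \ S) := by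
  have hsd : part f c \ (part f c ∩ S) = part f c \ S := by
    ext v
    simp only [mem_sdiff, mem_inter]
    tauto
  rcases (part f c ∩ S).eq_empty_or_nonempty with hX | hX
  · rw [hX]
    simp
  rcases (part f c \ S).eq_empty_or_nonempty with hW | hW
  · rw [hW]
    simp
  have hne : part f c ∩ S ≠ part f c := by
    intro h
    obtain ⟨v, hv⟩ := hW
    rw [mem_sdiff] at hv
    have hv2 : v ∈ part f c ∩ S := by
      rw [h]
      exact hv.1
    exact hv.2 (mem_inter.mp hv2).2
  have h1 := hsplit c (part f c ∩ S) inter_subset_left hX hne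
  rw [hsd] at h1
  obtain ⟨v, hv⟩ := hX
  have hvP : v ∈ part f c := (mem_inter.mp hv).1
  have hfv : f v = c := by
    rw [part, mem_filter] at hvP
    exact hvP.2
  have h2 := hsize v
  rw [hfv] at h2
  have h3 : (part f c ∩ S).card + (part f c \ S).card = (part f c).card :=
    card_inter_add_card_sdiff (part f c) S
  generalize (part f c ∩ S).card = x at h1 h3 ⊢
  generalize (part f c \ S).card = w at h1 h3 ⊢
  generalize pairs R (part f c ∩ S) (part f c \ S) = q at h1 ⊢
  generalize (part f c).card = p at h2 h3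
  generalize Fintype.card V = N at h1 ⊢
  rcases le_total x w with hxw | hxw
  · rw [min_eq_left hxw]
    have hd : d ≤ 4 * w := by omega
    calc d * d * x ≤ d * (4 * w) * x := by gcongr
      _ = 4 * (d * (x * w)) := by ring
      _ ≤ 4 * (2 * N * q) := by gcongr
      _ = 8 * N * q := by ring
  · rw [min_eq_right hxw]
    have hd : d ≤ 4 * x := by omega
    calc d * d * w ≤ d * (4 * x) * w := by gcongr
      _ = 4 * (d * (x * w)) := by ring
      _ ≤ 4 * (2 * N * q) := by gcongr
      _ = 8 * N * q := by ring

/-- D10 -/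
theorem parts_card (f : V → V) (d : ℕ) (hsize : ∀ v : V, d + 2 ≤ 2 * (part f (f v)).card) :
    (Finset.univ.image f).card * (d + 2) ≤ 2 * Fintype.card V := by
  have h1 : Fintype.card V = ∑ c ∈ Finset.univ.image f, (part f c).card := by
    rw [← Finset.card_univ]
    exact Finset.card_eq_sum_card_image f Finset.univ
  have h2 : ∑ _c ∈ Finset.univ.image f, (d + 2)
      ≤ ∑ c ∈ Finset.univ.image f, 2 * (part f c).card := by
    apply Finset.sum_le_sum
    intro c hc
    obtain ⟨v, -, rfl⟩ := Finset.mem_image.mp hc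
    exact hsize v
  rw [Finset.sum_const, smul_eq_mul, ← Finset.mul_sum, ← h1] at h2
  exact h2

end Vale.Agent.H17.Dense
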