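import Mathlib
import Vale.Agent.H17.Dense.Defs

/-! Row D8.  An edge `e` with both ends of colour `c` that crosses `S` has exactly one end in
`part f c ∩ S` and the other in `part f c \ S`, and it is an inside edge.  Mapping `e` to its
end in `part f c ∩ S` (resp. in `part f c \ S`) and using `ideg ≤ D`:
the number of such edges in `F` is at most `D * |part f c ∩ S|` and at most
`D * |part f c \ S|` (`Finset.card_le_mul_card_image` or a sum over the vertices). -/

namespace Vale.Agent.H17.Dense

open Finset

variable {V E : Type} [Fintype V] [DecidableEq V] [Fintype E] [DecidableEq E]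

omit [Fintype V] [Fintype E] [DecidableEq E] in
theorem d8_aux (a b : E → V) (f : V → V) (D : ℕ) (F : Finset E)
    (hdeg : ∀ v, ideg a b f F v ≤ D) (X : Finset E) (T : Finset V) (g : E → V)
    (hX : ∀ e ∈ X, e ∈ F ∧ f (a e) = f (b e) ∧ (a e = g e ∨ b e = g e) ∧ g e ∈ T) :
    X.card ≤ D * T.card := by
  calc X.card ≤ D * (X.image g).card := by
        apply Finset.card_le_mul_card_image
        intro v _
        refine le_trans (Finset.card_le_card ?_) (hdeg v)
        intro e he
        rw [Finset.mem_filter] at he
        obtain ⟨heX, hgv⟩ := he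
        obtain ⟨h1, h2, h3, _⟩ := hX e heX
        rw [Finset.mem_filter]
        exact ⟨h1, h2, by rw [← hgv]; exact h3⟩
    _ ≤ D * T.card := by
        apply Nat.mul_le_mul_left
        apply Finset.card_le_card
        intro v hv
        rw [Finset.mem_image] at hv
        obtain ⟨e, he, rfl⟩ := hv
        exact (hX e he).2.2.2

/-- D8 -/
theorem inside_cross_le (a b : E → V) (f : V → V) (D : ℕ) (F : Finset E)
    (hdeg : ∀ v, ideg a b f F v ≤ D) (S : Finset V) (c : V) :
    (F.filter fun e => (f (a e) = c ∧ f (b e) = c) ∧ Cr a b S e).card ≤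
      D * min (part f c ∩ S).card (part f c \ S).card := by
  have h1 : (F.filter fun e => (f (a e) = c ∧ f (b e) = c) ∧ Cr a b S e).card
      ≤ D * (part f c ∩ S).card := by
    apply d8_aux a b f D F hdeg _ _ (fun e => if a e ∈ S then a e else b e)
    intro e he
    rw [Finset.mem_filter] at he
    obtain ⟨heF, ⟨hfa, hfb⟩, hcr⟩ := he
    refine ⟨heF, by rw [hfa, hfb], ?_, ?_⟩
    · by_cases ha : a e ∈ S
      · left; simp [ha]
      · right; simp [ha]
    · rcases hcr with ⟨ha, hb⟩ | ⟨hb, ha⟩
      · simp [part, hfa, ha]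
      · simp [part, hfb, hb, ha]
  have h2 : (F.filter fun e => (f (a e) = c ∧ f (b e) = c) ∧ Cr a b S e).card
      ≤ D * (part f c \ S).card := by
    apply d8_aux a b f D F hdeg _ _ (fun e => if a e ∈ S then b e else a e)
    intro e he
    rw [Finset.mem_filter] at he
    obtain ⟨heF, ⟨hfa, hfb⟩, hcr⟩ := he
    refine ⟨heF, by rw [hfa, hfb], ?_, ?_⟩
    · by_cases ha : a e ∈ S
      · right; simp [ha]
      · left; simp [ha]
    · rcases hcr with ⟨ha, hb⟩ | ⟨hb, ha⟩
      · simp [part, hfb, hb, ha]
      · simp [part, hfa, ha]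
  rcases le_total (part f c ∩ S).card (part f c \ S).card with h | h
  · rw [min_eq_left h]; exact h1
  · rw [min_eq_right h]; exact h2

end Vale.Agent.H17.Dense
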