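import Mathlib
import Vale.Agent.H17.Dense.Defs
import Vale.Agent.H17.Dense.TreeCut
import Vale.Agent.H17.Dense.GraphCut
import Vale.Agent.H17.Dense.MinPairs

/-! Row D11 (thinness count).  `dF = |{e ∈ F : Cr S e}|`, `dG = |{e : Cr S e}|`, `n = |V|`,
`r = |univ.image f|`.  Split the edges of `F` crossing `S` into inside and cross edges:
`dF ≤ ∑ c, |{e ∈ F : (f (a e) = c ∧ f (b e) = c) ∧ Cr S e}| + |{e ∈ F : f (a e) ≠ f (b e)}|`
(fibres of `e ↦ f (a e)`).  With `m c = min |part f c ∩ S| |part f c \ S|`:
`inside_cross_le`: the `c`-th term is `≤ D * m c`; `min_le_pairs` and `pairs_le_inside_cross`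
(with `R = Adj a b`): `d d m c ≤ 8 n |{e : (f (a e) = c ∧ f (b e) = c) ∧ Cr S e}|`, and these
edge sets are disjoint for different `c`, so `d d ∑ c, m c ≤ 8 n dG`.
`hcross` and `parts_card`: the cross term is `≤ r - 1` and `d (r - 1) ≤ 2 n`.
So `d d k dF ≤ 8 n D k dG + d (2 n) k ≤ (8 n D k + 2 n d) dG` using `k ≤ dG`. -/

namespace Vale.Agent.H17.Dense

open Finset

variable {V E : Type} [Fintype V] [DecidableEq V] [Fintype E] [DecidableEq E]

/-- D11 -/
theorem thin_count (a b : E → V) (f : V → V) (d D k : ℕ) (F : Finset E)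
    (hsplit : ∀ (c : V) (U : Finset V), U ⊆ part f c → U.Nonempty → U ≠ part f c →
      d * (U.card * (part f c \ U).card) ≤
        2 * Fintype.card V * pairs (Adj a b) U (part f c \ U))
    (hsize : ∀ v : V, d + 2 ≤ 2 * (part f (f v)).card)
    (hdeg : ∀ v, ideg a b f F v ≤ D)
    (hcross : (F.filter fun e => f (a e) ≠ f (b e)).card + 1 ≤ (Finset.univ.image f).card)
    (S : Finset V) (hk : k ≤ (Finset.univ.filter fun e => Cr a b S e).card) :
    d * d * k * (F.filter fun e => Cr a b S e).card ≤
      (8 * Fintype.card V * D * k + 2 * Fintype.card V * d) *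
        (Finset.univ.filter fun e => Cr a b S e).card := by
  classical
  have hfib : ∀ G : Finset E,
      (G.filter fun e => f (a e) = f (b e) ∧ Cr a b S e).card
        = ∑ c : V, (G.filter fun e => (f (a e) = c ∧ f (b e) = c) ∧ Cr a b S e).card := by
    intro G
    rw [Finset.card_eq_sum_card_fiberwise (f := fun e => f (a e)) (t := Finset.univ)
      (fun e _ => Finset.mem_coe.mpr (Finset.mem_univ _))]
    refine Finset.sum_congr rfl fun c _ => ?_
    congr 1
    ext e
    simp only [Finset.mem_filter]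
    constructor
    · rintro ⟨⟨hG, heq, hcr⟩, hc⟩
      exact ⟨hG, ⟨hc, heq.symm.trans hc⟩, hcr⟩
    · rintro ⟨hG, ⟨hc1, hc2⟩, hcr⟩
      exact ⟨⟨hG, hc1.trans hc2.symm, hcr⟩, hc1⟩
  have h1 : (F.filter fun e => Cr a b S e).card
      ≤ ∑ c : V, (F.filter fun e => (f (a e) = c ∧ f (b e) = c) ∧ Cr a b S e).card
        + (F.filter fun e => f (a e) ≠ f (b e)).card := by
    have hsub : (F.filter fun e => Cr a b S e)
        ⊆ (F.filter fun e => f (a e) = f (b e) ∧ Cr a b S e)
          ∪ (F.filter fun e => f (a e) ≠ f (b e)) := by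
      intro e he
      rw [Finset.mem_filter] at he
      by_cases h : f (a e) = f (b e)
      · exact Finset.mem_union_left _ (Finset.mem_filter.mpr ⟨he.1, h, he.2⟩)
      · exact Finset.mem_union_right _ (Finset.mem_filter.mpr ⟨he.1, h⟩)
    calc (F.filter fun e => Cr a b S e).card
        ≤ ((F.filter fun e => f (a e) = f (b e) ∧ Cr a b S e)
          ∪ (F.filter fun e => f (a e) ≠ f (b e))).card := Finset.card_le_card hsub
      _ ≤ (F.filter fun e => f (a e) = f (b e) ∧ Cr a b S e).card
          + (F.filter fun e => f (a e) ≠ f (b e)).card := Finset.card_union_le _ _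
      _ = _ := by rw [hfib F]
  have h4 : ∑ c : V, (Finset.univ.filter fun e => (f (a e) = c ∧ f (b e) = c) ∧ Cr a b S e).card
      ≤ (Finset.univ.filter fun e => Cr a b S e).card := by
    rw [← hfib Finset.univ]
    refine Finset.card_le_card ?_
    intro e he
    rw [Finset.mem_filter] at he ⊢
    exact ⟨he.1, he.2.2⟩
  have hA : ∑ c : V, (F.filter fun e => (f (a e) = c ∧ f (b e) = c) ∧ Cr a b S e).card
      ≤ D * ∑ c : V, min (part f c ∩ S).card (part f c \ S).card := by
    rw [Finset.mul_sum]
    exact Finset.sum_le_sum fun c _ => inside_cross_le a b f D F hdeg S c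
  have hM : d * d * ∑ c : V, min (part f c ∩ S).card (part f c \ S).card
      ≤ 8 * Fintype.card V
        * ∑ c : V, (Finset.univ.filter fun e => (f (a e) = c ∧ f (b e) = c) ∧ Cr a b S e).card := by
    rw [Finset.mul_sum, Finset.mul_sum]
    exact Finset.sum_le_sum fun c _ =>
      (min_le_pairs (Adj a b) f d hsplit hsize S c).trans
        (Nat.mul_le_mul_left _ (pairs_le_inside_cross a b f S c))
  have h5 : d * (F.filter fun e => f (a e) ≠ f (b e)).card ≤ 2 * Fintype.card V := by
    have hp := parts_card f d hsize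
    have h6 : ((F.filter fun e => f (a e) ≠ f (b e)).card + 1) * (d + 2)
        ≤ (Finset.univ.image f).card * (d + 2) := Nat.mul_le_mul_right _ hcross
    have h7 : d * (F.filter fun e => f (a e) ≠ f (b e)).card
        ≤ ((F.filter fun e => f (a e) ≠ f (b e)).card + 1) * (d + 2) := by
      have h8 : ((F.filter fun e => f (a e) ≠ f (b e)).card + 1) * (d + 2)
          = d * (F.filter fun e => f (a e) ≠ f (b e)).card
            + (2 * (F.filter fun e => f (a e) ≠ f (b e)).card + d + 2) := by ring
      rw [h8]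
      exact Nat.le_add_right _ _
    exact h7.trans (h6.trans hp)
  generalize (F.filter fun e => Cr a b S e).card = dF at h1 ⊢
  generalize (Finset.univ.filter fun e => Cr a b S e).card = dG at h4 hk ⊢
  generalize (F.filter fun e => f (a e) ≠ f (b e)).card = X at h1 h5
  generalize ∑ c : V, (F.filter fun e => (f (a e) = c ∧ f (b e) = c) ∧ Cr a b S e).card = A
    at h1 hA
  generalize ∑ c : V, (Finset.univ.filter fun e => (f (a e) = c ∧ f (b e) = c) ∧ Cr a b S e).card
    = Gs at h4 hM
  generalize ∑ c : V, min (part f c ∩ S).card (part f c \ S).card = Ms at hA hM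
  generalize Fintype.card V = n at h5 hM ⊢
  calc d * d * k * dF ≤ d * d * k * (A + X) := Nat.mul_le_mul_left _ h1
    _ = k * (d * d * A) + d * k * (d * X) := by ring
    _ ≤ k * (d * d * (D * Ms)) + d * k * (2 * n) :=
      add_le_add (Nat.mul_le_mul_left _ (Nat.mul_le_mul_left _ hA)) (Nat.mul_le_mul_left _ h5)
    _ = k * D * (d * d * Ms) + d * k * (2 * n) := by ring
    _ ≤ k * D * (8 * n * Gs) + d * k * (2 * n) :=
      Nat.add_le_add_right (Nat.mul_le_mul_left _ hM) _
    _ ≤ k * D * (8 * n * dG) + d * dG * (2 * n) :=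
      add_le_add (Nat.mul_le_mul_left _ (Nat.mul_le_mul_left _ h4))
        (Nat.mul_le_mul_right _ (Nat.mul_le_mul_left _ hk))
    _ = (8 * n * D * k + 2 * n * d) * dG := by ring

end Vale.Agent.H17.Dense
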