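import Mathlib
import Vale.Agent.H17.Dense.Defs

/-! Row D12 (translation of cuts).  `G.Crosses S e` says: `∃ u ∈ G.ends e, ∃ v ∈ G.ends e,
u ∈ S ∧ v ∉ S`; with `G.ends e = s(a e, b e)` membership is `Sym2.mem_iff`.
`G.cutCount T S = Set.ncard {e | e ∈ T ∧ G.Crosses S e}`; the set is the coercion of a
filter (`Set.ncard_coe_finset`, `Finset.coe_filter`). -/

namespace Vale.Agent.H17.Dense

open Finset Vale.Agent.H17.ThinTree

variable {V E : Type} [Fintype V] [DecidableEq V] [Fintype E] [DecidableEq E]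

/-- D12 -/
theorem crosses_iff (G : MGraph V E) (a b : E → V) (hab : ∀ e, G.ends e = s(a e, b e))
    (S : Finset V) (e : E) : G.Crosses (S : Set V) e ↔ Cr a b S e := by
  unfold MGraph.Crosses Cr
  rw [hab e]
  constructor
  · rintro ⟨u, hu, v, hv, huS, hvS⟩
    rw [Sym2.mem_iff] at hu hv
    have huS' : u ∈ S := by exact_mod_cast huS
    have hvS' : v ∉ S := by exact_mod_cast hvS
    rcases hu with rfl | rfl <;> rcases hv with rfl | rfl
    · exact absurd huS' hvS'
    · exact Or.inl ⟨huS', hvS'⟩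
    · exact Or.inr ⟨huS', hvS'⟩
    · exact absurd huS' hvS'
  · rintro (⟨h1, h2⟩ | ⟨h1, h2⟩)
    · exact ⟨a e, Sym2.mem_mk_left _ _, b e, Sym2.mem_mk_right _ _,
        by exact_mod_cast h1, by exact_mod_cast h2⟩
    · exact ⟨b e, Sym2.mem_mk_right _ _, a e, Sym2.mem_mk_left _ _,
        by exact_mod_cast h1, by exact_mod_cast h2⟩

/-- D12 -/
theorem cutCount_eq (G : MGraph V E) (a b : E → V) (hab : ∀ e, G.ends e = s(a e, b e))
    (F : Finset E) (S : Finset V) :
    G.cutCount (F : Set E) (S : Set V) = (F.filter fun e => Cr a b S e).card := by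
  unfold MGraph.cutCount
  have d12_set : {e | e ∈ (F : Set E) ∧ G.Crosses (S : Set V) e}
      = ((F.filter fun e => Cr a b S e : Finset E) : Set E) := by
    ext e
    simp only [Set.mem_ofPred_eq, Finset.coe_filter, Finset.mem_coe]
    rw [crosses_iff G a b hab S e]
  rw [d12_set, Set.ncard_coe_finset]

/-- D12 -/
theorem cutCount_univ_eq (G : MGraph V E) (a b : E → V) (hab : ∀ e, G.ends e = s(a e, b e))
    (S : Finset V) :
    G.cutCount Set.univ (S : Set V) = (Finset.univ.filter fun e => Cr a b S e).card := by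
  have d12_h := cutCount_eq G a b hab Finset.univ S
  rw [Finset.coe_univ] at d12_h
  exact d12_h

end Vale.Agent.H17.Dense
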