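import Mathlib
import Vale.Agent.H17.Dense.Defs
import Vale.Agent.H17.Dense.Trans

/-! Row D13 (degrees and connectivity from edge connectivity).
`deg_of_edgeConnected`: as `|V| ≥ 2`, `S = {v}` is nonempty and proper, so at least `k` edges
cross `{v}` (`cutCount_univ_eq`).  Each such edge `e` has one end `v` and another end
`w e ≠ v` with `Adj a b v (w e)`; `e ↦ w e` is injective on these edges because
`G.ends e = s(v, w e)` and `G.ends` is injective.  So `v` has at least `k` neighbours.
`conn_of_edgeConnected`: `1 ≤ k ≤ cutCount` gives a crossing edge. -/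

namespace Vale.Agent.H17.Dense

open Finset Vale.Agent.H17.ThinTree

variable {V E : Type} [Fintype V] [DecidableEq V] [Fintype E] [DecidableEq E]

omit [DecidableEq V] in
/-- D13 helper: a singleton is a proper subset when there are at least two vertices. -/
theorem d13_singleton_ne_univ (hV : 2 ≤ Fintype.card V) (v : V) :
    (({v} : Finset V) : Set V) ≠ Set.univ := by
  intro h
  have h1 : ({v} : Finset V) = Finset.univ := Finset.coe_eq_univ.mp h
  have h2 : Fintype.card V = 1 := by
    rw [← Finset.card_univ, ← h1, Finset.card_singleton]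
  omega

/-- D13 -/
theorem deg_of_edgeConnected (G : MGraph V E) (a b : E → V)
    (hab : ∀ e, G.ends e = s(a e, b e)) (hinj : Function.Injective G.ends) (k : ℕ)
    (hk : G.EdgeConnected k) (hV : 2 ≤ Fintype.card V) (v : V) :
    k ≤ (Finset.univ.filter fun w => Adj a b v w).card := by
  have hne : (({v} : Finset V) : Set V).Nonempty := by
    rw [Finset.coe_nonempty]
    exact Finset.singleton_nonempty v
  have h1 := hk _ hne (d13_singleton_ne_univ hV v)
  rw [cutCount_univ_eq G a b hab] at h1
  refine le_trans h1 ?_
  refine Finset.card_le_card_of_injOn (fun e => if a e = v then b e else a e) ?_ ?_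
  · intro e he
    rw [Finset.coe_filter] at he
    have hcr : Cr a b {v} e := he.2
    rw [Finset.coe_filter]
    refine ⟨Finset.mem_univ _, ?_⟩
    rcases hcr with ⟨h1, _⟩ | ⟨h1, h2⟩
    · have hav : a e = v := Finset.mem_singleton.mp h1
      simp only [hav, if_true]
      exact ⟨e, Or.inl ⟨hav, rfl⟩⟩
    · have hbv : b e = v := Finset.mem_singleton.mp h1
      have hav : a e ≠ v := fun h => h2 (Finset.mem_singleton.mpr h)
      simp only [hav, if_false]
      exact ⟨e, Or.inr ⟨rfl, hbv⟩⟩
  · intro e he e' he' hw
    rw [Finset.coe_filter] at he he'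
    have key : ∀ e : E, Cr a b {v} e →
        G.ends e = s(v, if a e = v then b e else a e) := by
      intro e hcr
      rcases hcr with ⟨h1, _⟩ | ⟨h1, h2⟩
      · have hav : a e = v := Finset.mem_singleton.mp h1
        simp only [hav, if_true]
        rw [hab e, hav]
      · have hbv : b e = v := Finset.mem_singleton.mp h1
        have hav : a e ≠ v := fun h => h2 (Finset.mem_singleton.mpr h)
        simp only [hav, if_false]
        rw [hab e, hbv, Sym2.eq_swap]
    apply hinj
    rw [key e he.2, key e' he'.2]
    simp only at hw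
    rw [hw]

/-- D13 -/
theorem conn_of_edgeConnected (G : MGraph V E) (a b : E → V)
    (hab : ∀ e, G.ends e = s(a e, b e)) (k : ℕ) (hk1 : 1 ≤ k) (hk : G.EdgeConnected k)
    (S : Finset V) (hS : S.Nonempty) (hS2 : S ≠ Finset.univ) : ∃ e, Cr a b S e := by
  have hne : (S : Set V).Nonempty := Finset.coe_nonempty.mpr hS
  have hne2 : (S : Set V) ≠ Set.univ := fun h => hS2 (Finset.coe_eq_univ.mp h)
  have h1 := hk _ hne hne2
  rw [cutCount_univ_eq G a b hab] at h1
  have h2 : 0 < (Finset.univ.filter fun e => Cr a b S e).card := by omega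
  obtain ⟨e, he⟩ := Finset.card_pos.mp h2
  exact ⟨e, (Finset.mem_filter.mp he).2⟩

end Vale.Agent.H17.Dense
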