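import Mathlib
import Vale.Agent.H17.Dense.Defs

/-! Row D5.  Adding a cross edge `e` joining `u ∈ U` to a new vertex `w ∉ U` whose colour is
not met by `U` keeps all the invariants.  (`e ∉ F`; `e` is a cross edge, so inside degrees
and the inside counts of the old colours are unchanged; for the colour `f w`:
`(insert w U).filter (f · = f w) = {w}` and no edge of `F` has an end of colour `f w`; the
cross count and `(insert w U).image f` both grow by one.) -/

namespace Vale.Agent.H17.Dense

open Finset

variable {V E : Type} [Fintype V] [DecidableEq V] [Fintype E] [DecidableEq E]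

/-- D5 -/
theorem good_insert_cross (a b : E → V) (f : V → V) (D : ℕ) (root : V) (U : Finset V)
    (F : Finset E) (h : Good a b f D root U F) (e : E) (u w : V) (hu : u ∈ U) (hw : w ∉ U)
    (he : (a e = u ∧ b e = w) ∨ (a e = w ∧ b e = u)) (hnew : ∀ x ∈ U, f x ≠ f w) :
    Good a b f D root (insert w U) (insert e F) := by
  classical
  have heF : e ∉ F := by
    intro heF
    have h0 := h.ends_mem e heF
    rcases he with ⟨h1, h2⟩ | ⟨h1, h2⟩
    · exact hw (h2 ▸ h0.2)
    · exact hw (h1 ▸ h0.1)
  have hfe : f (a e) ≠ f (b e) := by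
    rcases he with ⟨h1, h2⟩ | ⟨h1, h2⟩
    · rw [h1, h2]
      exact hnew u hu
    · rw [h1, h2]
      exact (hnew u hu).symm
  have hFw : ∀ e' ∈ F, f (a e') ≠ f w ∧ f (b e') ≠ f w := fun e' he' =>
    ⟨hnew _ (h.ends_mem e' he').1, hnew _ (h.ends_mem e' he').2⟩
  refine ⟨?_, ?_, ?_, ?_, ?_, ?_, ?_⟩
  · exact Finset.mem_insert_of_mem h.root_mem
  · intro e' he'
    rcases Finset.mem_insert.mp he' with rfl | he'
    · rcases he with ⟨h1, h2⟩ | ⟨h1, h2⟩
      · rw [h1, h2]
        exact ⟨Finset.mem_insert_of_mem hu, Finset.mem_insert_self _ _⟩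
      · rw [h1, h2]
        exact ⟨Finset.mem_insert_self _ _, Finset.mem_insert_of_mem hu⟩
    · exact ⟨Finset.mem_insert_of_mem (h.ends_mem e' he').1,
        Finset.mem_insert_of_mem (h.ends_mem e' he').2⟩
  · rw [Finset.card_insert_of_notMem heF, Finset.card_insert_of_notMem hw, h.card_eq]
  · have hmono : ∀ x y, AdjIn a b F x y → AdjIn a b (insert e F) x y := by
      rintro x y ⟨e', he', h'⟩
      exact ⟨e', Finset.mem_insert_of_mem he', h'⟩
    intro v hv
    rcases Finset.mem_insert.mp hv with rfl | hv
    · refine Relation.ReflTransGen.tail (Relation.ReflTransGen.mono hmono _ _ (h.reach u hu)) ?_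
      exact ⟨e, Finset.mem_insert_self _ _, he⟩
    · exact Relation.ReflTransGen.mono hmono _ _ (h.reach v hv)
  · intro v
    have h1 : (insert e F).filter (fun e' => f (a e') = f (b e') ∧ (a e' = v ∨ b e' = v))
        = F.filter (fun e' => f (a e') = f (b e') ∧ (a e' = v ∨ b e' = v)) := by
      rw [Finset.filter_insert, if_neg (fun hh => hfe hh.1)]
    unfold ideg
    rw [h1]
    exact h.deg_le v
  · intro c hc
    have hfil : (insert e F).filter (fun e' => f (a e') = c ∧ f (b e') = c)
        = F.filter (fun e' => f (a e') = c ∧ f (b e') = c) := by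
      rw [Finset.filter_insert, if_neg (fun hh => hfe (hh.1.trans hh.2.symm))]
    rw [hfil]
    by_cases hcw : c = f w
    · subst hcw
      have h1 : F.filter (fun e' => f (a e') = f w ∧ f (b e') = f w) = ∅ := by
        apply Finset.filter_eq_empty_iff.mpr
        intro e' he' hh
        exact (hFw e' he').1 hh.1
      have h2 : (insert w U).filter (fun x => f x = f w) = {w} := by
        rw [Finset.filter_insert, if_pos rfl]
        have h3 : U.filter (fun x => f x = f w) = ∅ :=
          Finset.filter_eq_empty_iff.mpr (fun x hx => hnew x hx)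
        rw [h3]
        rfl
      rw [h1, h2]
      simp
    · have h2 : (insert w U).filter (fun x => f x = c) = U.filter (fun x => f x = c) := by
        rw [Finset.filter_insert, if_neg (fun hh => hcw hh.symm)]
      rw [h2] at hc ⊢
      exact h.inside_le c hc
  · have h1 : (insert e F).filter (fun e' => f (a e') ≠ f (b e'))
        = insert e (F.filter (fun e' => f (a e') ≠ f (b e'))) := by
      rw [Finset.filter_insert, if_pos hfe]
    have h2 : e ∉ F.filter (fun e' => f (a e') ≠ f (b e')) :=
      fun hh => heF (Finset.mem_filter.mp hh).1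
    have h3 : f w ∉ U.image f := by
      intro hh
      obtain ⟨x, hx, hxw⟩ := Finset.mem_image.mp hh
      exact hnew x hx hxw
    rw [h1, Finset.card_insert_of_notMem h2, Finset.image_insert,
      Finset.card_insert_of_notMem h3]
    have h4 := h.cross_le
    omega

end Vale.Agent.H17.Dense
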