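import Mathlib
import Vale.Agent.H17.Dense.Defs

/-! Row D4.  Adding an inside edge `e` joining `u ∈ U` to a new vertex `w ∉ U` of the same
colour, when `u` lies on fewer than `D` inside edges of `F`, keeps all the invariants.
(`e ∉ F` because both ends of the edges of `F` lie in `U`; the inside degree of `w` in `F` is
`0` for the same reason; colour classes other than `f u` and the cross edges are unchanged;
`U.image f ⊆ (insert w U).image f`; reachability: `Relation.ReflTransGen.mono` and one more
step through `e`.) -/

namespace Vale.Agent.H17.Dense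

open Finset

variable {V E : Type} [Fintype V] [DecidableEq V] [Fintype E] [DecidableEq E]

/-- D4 -/
theorem good_insert_inside (a b : E → V) (f : V → V) (D : ℕ) (root : V) (U : Finset V)
    (F : Finset E) (h : Good a b f D root U F) (e : E) (u w : V) (hu : u ∈ U) (hw : w ∉ U)
    (he : (a e = u ∧ b e = w) ∨ (a e = w ∧ b e = u)) (hfw : f u = f w)
    (hdeg : ideg a b f F u < D) :
    Good a b f D root (insert w U) (insert e F) := by
  have heF : e ∉ F := by
    intro hmem
    have h2 := h.ends_mem e hmem
    rcases he with ⟨h3, h4⟩ | ⟨h3, h4⟩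
    · exact hw (h4 ▸ h2.2)
    · exact hw (h3 ▸ h2.1)
  have hin : f (a e) = f (b e) := by
    rcases he with ⟨h3, h4⟩ | ⟨h3, h4⟩
    · rw [h3, h4]
      exact hfw
    · rw [h3, h4]
      exact hfw.symm
  refine ⟨?_, ?_, ?_, ?_, ?_, ?_, ?_⟩
  · exact Finset.mem_insert_of_mem h.root_mem
  · intro e' he'
    rcases Finset.mem_insert.mp he' with h2 | h2
    · rw [h2]
      rcases he with ⟨h3, h4⟩ | ⟨h3, h4⟩
      · rw [h3, h4]
        exact ⟨Finset.mem_insert_of_mem hu, Finset.mem_insert_self w U⟩
      · rw [h3, h4]
        exact ⟨Finset.mem_insert_self w U, Finset.mem_insert_of_mem hu⟩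
    · have h3 := h.ends_mem e' h2
      exact ⟨Finset.mem_insert_of_mem h3.1, Finset.mem_insert_of_mem h3.2⟩
  · rw [Finset.card_insert_of_notMem heF, Finset.card_insert_of_notMem hw]
    have h2 := h.card_eq
    omega
  · intro v hv
    have hmono : ∀ x y, AdjIn a b F x y → AdjIn a b (insert e F) x y := by
      rintro x y ⟨e', he', h2⟩
      exact ⟨e', Finset.mem_insert_of_mem he', h2⟩
    rcases Finset.mem_insert.mp hv with h2 | h2
    · rw [h2]
      exact Relation.ReflTransGen.tail (Relation.ReflTransGen.mono hmono _ _ (h.reach u hu))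
        ⟨e, Finset.mem_insert_self e F, he⟩
    · exact Relation.ReflTransGen.mono hmono _ _ (h.reach v h2)
  · intro v
    unfold ideg
    rw [Finset.filter_insert]
    split_ifs with hp
    · rw [Finset.card_insert_of_notMem (fun hm => heF (Finset.mem_of_mem_filter e hm))]
      have hv : v = u ∨ v = w := by
        rcases hp.2 with h1 | h1 <;> rcases he with ⟨h2, h3⟩ | ⟨h2, h3⟩
        · left
          rw [← h1, h2]
        · right
          rw [← h1, h2]
        · right
          rw [← h1, h3]
        · left
          rw [← h1, h3]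
      rcases hv with h1 | h1
      · rw [h1]
        have h2 := hdeg
        unfold ideg at h2
        omega
      · have h0 : (F.filter fun e' => f (a e') = f (b e') ∧ (a e' = v ∨ b e' = v)) = ∅ := by
          apply Finset.filter_eq_empty_iff.mpr
          intro e' he' hp'
          have h2 := h.ends_mem e' he'
          rcases hp'.2 with h3 | h3
          · exact hw (h1 ▸ h3 ▸ h2.1)
          · exact hw (h1 ▸ h3 ▸ h2.2)
        rw [h0, Finset.card_empty]
        omega
    · exact h.deg_le v
  · intro c hne
    by_cases hc : f u = c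
    · have hUne : (U.filter fun x => f x = c).Nonempty :=
        ⟨u, Finset.mem_filter.mpr ⟨hu, hc⟩⟩
      have h1 := h.inside_le c hUne
      have hwc : f w = c := hfw.symm.trans hc
      have hpe : f (a e) = c ∧ f (b e) = c := by
        rcases he with ⟨h2, h3⟩ | ⟨h2, h3⟩
        · rw [h2, h3]
          exact ⟨hc, hwc⟩
        · rw [h2, h3]
          exact ⟨hwc, hc⟩
      rw [Finset.filter_insert, if_pos hpe, Finset.filter_insert, if_pos hwc,
        Finset.card_insert_of_notMem (fun hm => heF (Finset.mem_of_mem_filter _ hm)),
        Finset.card_insert_of_notMem (fun hm => hw (Finset.mem_of_mem_filter _ hm))]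
      omega
    · have hpe : ¬ (f (a e) = c ∧ f (b e) = c) := by
        rintro ⟨h2, h3⟩
        rcases he with ⟨h4, h5⟩ | ⟨h4, h5⟩
        · exact hc (h4 ▸ h2)
        · exact hc (h5 ▸ h3)
      have hwc : ¬ f w = c := fun h2 => hc (hfw.trans h2)
      rw [Finset.filter_insert, if_neg hwc] at hne
      rw [Finset.filter_insert, if_neg hpe, Finset.filter_insert, if_neg hwc]
      exact h.inside_le c hne
  · have hnin : ¬ (f (a e) ≠ f (b e)) := fun h2 => h2 hin
    rw [Finset.filter_insert, if_neg hnin]
    have hsub : U.image f ⊆ (insert w U).image f :=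
      Finset.image_subset_image (Finset.subset_insert w U)
    have h2 := Finset.card_le_card hsub
    have h3 := h.cross_le
    omega

end Vale.Agent.H17.Dense
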