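import Mathlib
import Vale.Agent.H17.Dense.Defs

/-! Row D6 (the counting step).  `UA = U.filter (f · = c)` is a nonempty proper subset of
`part f c`; `W = part f c \ UA` (its elements are not in `U`); `U' = {u ∈ UA : ∃ w ∈ W, Adj u w}`.
`hsplit`: `d |UA| |W| ≤ 2 n pairs (Adj a b) UA W`, and `pairs (Adj a b) UA W ≤ |U'| |W|`.
Suppose every `u ∈ U'` has `ideg F u ≥ D`.  Double counting:
`∑ u ∈ UA, ideg F u ≤ 2 * |{e ∈ F : f (a e) = c ∧ f (b e) = c}| ≤ 2 (|UA| - 1)` (`h.inside_le`),
so `D |U'| ≤ 2 |UA| - 2`, and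
`d D |U'| |W| < 2 d |UA| |W| ≤ 4 n |U'| |W| ≤ d D |U'| |W|`, a contradiction
(`|W| > 0`, `d > 0`).  So some `u ∈ U'` has `ideg F u < D`; it has a neighbour `w ∈ W`
through an edge `e`, and `f u = c = f w`, `w ∉ U`. -/

namespace Vale.Agent.H17.Dense

open Finset

variable {V E : Type} [Fintype V] [DecidableEq V] [Fintype E] [DecidableEq E]

theorem d6_sum_ideg_le (a b : E → V) (f : V → V) (F : Finset E) (c : V) (UA : Finset V)
    (hUA : ∀ v ∈ UA, f v = c) :
    ∑ v ∈ UA, ideg a b f F v ≤ 2 * (F.filter fun e => f (a e) = c ∧ f (b e) = c).card := by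
  classical
  have h1 : ∀ v, ideg a b f F v
      = ∑ e ∈ F, if (f (a e) = f (b e) ∧ (a e = v ∨ b e = v)) then 1 else 0 := by
    intro v
    unfold ideg
    rw [Finset.card_filter]
  simp_rw [h1]
  rw [Finset.sum_comm]
  have h2 : ∀ e ∈ F, (∑ v ∈ UA, if (f (a e) = f (b e) ∧ (a e = v ∨ b e = v)) then 1 else 0)
      ≤ if (f (a e) = c ∧ f (b e) = c) then 2 else 0 := by
    intro e _
    rw [← Finset.card_filter]
    by_cases hce : f (a e) = c ∧ f (b e) = c
    · rw [if_pos hce]
      calc (UA.filter fun v => f (a e) = f (b e) ∧ (a e = v ∨ b e = v)).card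
          ≤ ({a e, b e} : Finset V).card := by
            apply Finset.card_le_card
            intro v hv
            rw [Finset.mem_filter] at hv
            rw [Finset.mem_insert, Finset.mem_singleton]
            rcases hv.2.2 with h | h
            · left; exact h.symm
            · right; exact h.symm
        _ ≤ 2 := Finset.card_le_two
    · rw [if_neg hce]
      rw [Nat.le_zero, Finset.card_eq_zero, Finset.filter_eq_empty_iff]
      intro v hv hcond
      apply hce
      have hfv := hUA v hv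
      rcases hcond.2 with h | h
      · have h5 : f (a e) = c := by rw [h]; exact hfv
        exact ⟨h5, by rw [← hcond.1]; exact h5⟩
      · have h5 : f (b e) = c := by rw [h]; exact hfv
        exact ⟨by rw [hcond.1]; exact h5, h5⟩
  calc ∑ e ∈ F, ∑ v ∈ UA, (if (f (a e) = f (b e) ∧ (a e = v ∨ b e = v)) then 1 else 0)
      ≤ ∑ e ∈ F, (if (f (a e) = c ∧ f (b e) = c) then 2 else 0) := Finset.sum_le_sum h2
    _ = 2 * (F.filter fun e => f (a e) = c ∧ f (b e) = c).card := by
        rw [Finset.card_filter, Finset.mul_sum]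
        apply Finset.sum_congr rfl
        intro e _
        split_ifs <;> simp

/-- D6 -/
theorem exists_room (a b : E → V) (f : V → V) (d D : ℕ) (hd : 1 ≤ d)
    (hD : 4 * Fintype.card V ≤ d * D)
    (hsplit : ∀ (c : V) (U : Finset V), U ⊆ part f c → U.Nonempty → U ≠ part f c →
      d * (U.card * (part f c \ U).card) ≤
        2 * Fintype.card V * pairs (Adj a b) U (part f c \ U))
    (root : V) (U : Finset V) (F : Finset E) (h : Good a b f D root U F) (c : V)
    (hne : (U.filter fun u => f u = c).Nonempty)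
    (hc : (U.filter fun u => f u = c) ≠ part f c) :
    ∃ (e : E) (u w : V), u ∈ U ∧ w ∉ U ∧ ((a e = u ∧ b e = w) ∨ (a e = w ∧ b e = u)) ∧
      f u = f w ∧ ideg a b f F u < D := by
  classical
  by_contra hcon
  push Not at hcon
  obtain ⟨UA, hUA⟩ : ∃ UA : Finset V, UA = U.filter fun u => f u = c := ⟨_, rfl⟩
  rw [← hUA] at hne hc
  obtain ⟨W, hW⟩ : ∃ W : Finset V, W = part f c \ UA := ⟨_, rfl⟩
  have hUAmem : ∀ v ∈ UA, v ∈ U ∧ f v = c := by
    intro v hv
    rw [hUA, Finset.mem_filter] at hv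
    exact hv
  have hsub : UA ⊆ part f c := by
    intro v hv
    unfold part
    rw [Finset.mem_filter]
    exact ⟨Finset.mem_univ v, (hUAmem v hv).2⟩
  have hWmem : ∀ w ∈ W, f w = c ∧ w ∉ U := by
    intro w hw
    rw [hW, Finset.mem_sdiff] at hw
    have h1 : f w = c := by
      have h0 := hw.1
      unfold part at h0
      rw [Finset.mem_filter] at h0
      exact h0.2
    refine ⟨h1, fun hwU => hw.2 ?_⟩
    rw [hUA, Finset.mem_filter]
    exact ⟨hwU, h1⟩
  have hWpos : 0 < W.card := by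
    rw [Finset.card_pos]
    by_contra hemp
    rw [Finset.not_nonempty_iff_eq_empty] at hemp
    apply hc
    apply Finset.Subset.antisymm hsub
    rw [hW, Finset.sdiff_eq_empty_iff_subset] at hemp
    exact hemp
  have h3 := hsplit c UA hsub hne hc
  rw [← hW] at h3
  obtain ⟨U', hU'⟩ : ∃ U' : Finset V, U' = UA.filter fun u => ∃ w ∈ W, Adj a b u w := ⟨_, rfl⟩
  have h4 : pairs (Adj a b) UA W ≤ U'.card * W.card := by
    unfold pairs
    rw [← Finset.card_product]
    apply Finset.card_le_card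
    intro p hp
    rw [Finset.mem_filter, Finset.mem_product] at hp
    rw [Finset.mem_product, hU', Finset.mem_filter]
    exact ⟨⟨hp.1.1, p.2, hp.1.2, hp.2⟩, hp.1.2⟩
  have h1 : D * U'.card ≤ ∑ u ∈ U', ideg a b f F u := by
    rw [mul_comm, ← smul_eq_mul, ← Finset.sum_const]
    apply Finset.sum_le_sum
    intro u hu
    rw [hU', Finset.mem_filter] at hu
    obtain ⟨huA, w, hw, hadj⟩ := hu
    unfold Adj at hadj
    obtain ⟨e, he⟩ := hadj
    have hu2 := hUAmem u huA
    have hw2 := hWmem w hw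
    exact hcon e u w hu2.1 hw2.2 he (by rw [hu2.2, hw2.1])
  have h1' : ∑ u ∈ U', ideg a b f F u ≤ ∑ u ∈ UA, ideg a b f F u := by
    apply Finset.sum_le_sum_of_subset
    rw [hU']
    exact Finset.filter_subset _ _
  have h1'' := d6_sum_ideg_le a b f F c UA (fun v hv => (hUAmem v hv).2)
  have h2 := h.inside_le c (by rw [← hUA]; exact hne)
  rw [← hUA] at h2
  obtain ⟨k, hk0⟩ : ∃ k : ℕ, k = (F.filter fun e => f (a e) = c ∧ f (b e) = c).card := ⟨_, rfl⟩
  rw [← hk0] at h2 h1''
  obtain ⟨n, hn0⟩ : ∃ n : ℕ, n = Fintype.card V := ⟨_, rfl⟩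
  rw [← hn0] at h3 hD
  obtain ⟨P, hP0⟩ : ∃ P : ℕ, P = pairs (Adj a b) UA W := ⟨_, rfl⟩
  rw [← hP0] at h3 h4
  have hk : D * U'.card ≤ 2 * k := le_trans h1 (le_trans h1' h1'')
  have e1 : d * D * (U'.card * W.card) ≤ 2 * (d * (k * W.card)) := by
    calc d * D * (U'.card * W.card) = d * W.card * (D * U'.card) := by ring
      _ ≤ d * W.card * (2 * k) := Nat.mul_le_mul_left _ hk
      _ = 2 * (d * (k * W.card)) := by ring
  have e2 : 2 * (d * (UA.card * W.card)) ≤ 4 * n * (U'.card * W.card) := by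
    calc 2 * (d * (UA.card * W.card)) ≤ 2 * (2 * n * P) := Nat.mul_le_mul_left _ h3
      _ ≤ 2 * (2 * n * (U'.card * W.card)) :=
          Nat.mul_le_mul_left _ (Nat.mul_le_mul_left _ h4)
      _ = 4 * n * (U'.card * W.card) := by ring
  have e3 : 4 * n * (U'.card * W.card) ≤ d * D * (U'.card * W.card) :=
    Nat.mul_le_mul_right _ hD
  have e4 : 2 * (d * (UA.card * W.card)) ≤ 2 * (d * (k * W.card)) :=
    le_trans e2 (le_trans e3 e1)
  have e5 : UA.card * W.card ≤ k * W.card := by
    have e45 := Nat.le_of_mul_le_mul_left e4 (by norm_num : 0 < 2)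
    exact Nat.le_of_mul_le_mul_left e45 (by omega)
  have e6 : UA.card ≤ k := Nat.le_of_mul_le_mul_right e5 hWpos
  omega

end Vale.Agent.H17.Dense
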