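import Mathlib
import Vale.Agent.H17.Dense.Defs
import Vale.Agent.H17.Dense.InsIn
import Vale.Agent.H17.Dense.InsCr
import Vale.Agent.H17.Dense.Room

/-! Row D7 (growth).  Induction on `m`: for `1 ≤ m ≤ |V|` there are `U`, `F` with
`Good a b f D root U F` and `U.card = m`.  Start: `U = {root}`, `F = ∅`.  Step, `U ≠ univ`:
if some colour `c` has `U.filter (f · = c)` nonempty and `≠ part f c`: `exists_room` and
`good_insert_inside`.  Otherwise every colour met by `U` has its whole class in `U`;
`hconn U` gives an edge `e` with one end `u ∈ U` and the other end `w ∉ U`; no `x ∈ U` has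
`f x = f w` (else `w ∈ part f (f w) = U.filter (f · = f w) ⊆ U`); `good_insert_cross`.
For `m = |V|`: `U = univ` (`Finset.eq_univ_of_card`). -/

namespace Vale.Agent.H17.Dense

open Finset

variable {V E : Type} [Fintype V] [DecidableEq V] [Fintype E] [DecidableEq E]

/-- D7 base: the one-vertex tree at the root. -/
theorem d7_base (a b : E → V) (f : V → V) (D : ℕ) (root : V) :
    Good a b f D root {root} (∅ : Finset E) := by
  refine ⟨mem_singleton_self root, ?_, ?_, ?_, ?_, ?_, ?_⟩
  · intro e he
    exact absurd he (notMem_empty e)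
  · simp
  · intro u hu
    obtain rfl := mem_singleton.mp hu
    exact Relation.ReflTransGen.refl
  · intro v
    simp [ideg]
  · intro c hc
    have hpos := hc.card_pos
    simp only [filter_empty, card_empty]
    omega
  · simp

/-- D7 step: a good pair on a proper vertex subset can be extended by one vertex. -/
theorem d7_step (a b : E → V) (f : V → V) (d D : ℕ) (hd : 1 ≤ d)
    (hD : 4 * Fintype.card V ≤ d * D)
    (hsplit : ∀ (c : V) (U : Finset V), U ⊆ part f c → U.Nonempty → U ≠ part f c →
      d * (U.card * (part f c \ U).card) ≤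
        2 * Fintype.card V * pairs (Adj a b) U (part f c \ U))
    (hconn : ∀ S : Finset V, S.Nonempty → S ≠ Finset.univ → ∃ e, Cr a b S e) (root : V)
    (U : Finset V) (F : Finset E) (h : Good a b f D root U F) (hU : U ≠ Finset.univ) :
    ∃ (w : V) (e : E), w ∉ U ∧ Good a b f D root (insert w U) (insert e F) := by
  by_cases hc : ∃ c, (U.filter fun u => f u = c).Nonempty ∧
      (U.filter fun u => f u = c) ≠ part f c
  · obtain ⟨c, hne, hcc⟩ := hc
    obtain ⟨e, u, w, hu, hw, he, hfw, hdeg⟩ :=
      exists_room a b f d D hd hD hsplit root U F h c hne hcc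
    exact ⟨w, e, hw, good_insert_inside a b f D root U F h e u w hu hw he hfw hdeg⟩
  · have hc' : ∀ c, (U.filter fun u => f u = c).Nonempty →
        (U.filter fun u => f u = c) = part f c := by
      intro c hne
      by_contra hcc
      exact hc ⟨c, hne, hcc⟩
    obtain ⟨e, he⟩ := hconn U ⟨root, h.root_mem⟩ hU
    have key : ∀ u w : V, u ∈ U → w ∉ U → ((a e = u ∧ b e = w) ∨ (a e = w ∧ b e = u)) →
        ∃ (w : V) (e : E), w ∉ U ∧ Good a b f D root (insert w U) (insert e F) := by
      intro u w hu hw hee
      refine ⟨w, e, hw, good_insert_cross a b f D root U F h e u w hu hw hee ?_⟩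
      intro x hx hfx
      have hne : (U.filter fun u => f u = f w).Nonempty := ⟨x, mem_filter.mpr ⟨hx, hfx⟩⟩
      have heq := hc' (f w) hne
      have hwp : w ∈ part f (f w) := mem_filter.mpr ⟨mem_univ w, rfl⟩
      rw [← heq] at hwp
      exact hw (mem_filter.mp hwp).1
    rcases he with ⟨h1, h2⟩ | ⟨h1, h2⟩
    · exact key (a e) (b e) h1 h2 (Or.inl ⟨rfl, rfl⟩)
    · exact key (b e) (a e) h1 h2 (Or.inr ⟨rfl, rfl⟩)

/-- D7 growth: good pairs exist on vertex sets of every size from `1` to `|V|`. -/
theorem d7_grow (a b : E → V) (f : V → V) (d D : ℕ) (hd : 1 ≤ d)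
    (hD : 4 * Fintype.card V ≤ d * D)
    (hsplit : ∀ (c : V) (U : Finset V), U ⊆ part f c → U.Nonempty → U ≠ part f c →
      d * (U.card * (part f c \ U).card) ≤
        2 * Fintype.card V * pairs (Adj a b) U (part f c \ U))
    (hconn : ∀ S : Finset V, S.Nonempty → S ≠ Finset.univ → ∃ e, Cr a b S e) (root : V)
    (m : ℕ) (hm1 : 1 ≤ m) (hm : m ≤ Fintype.card V) :
    ∃ (U : Finset V) (F : Finset E), Good a b f D root U F ∧ U.card = m := by
  induction m, hm1 using Nat.le_induction with
  | base => exact ⟨{root}, ∅, d7_base a b f D root, card_singleton root⟩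
  | succ m hm1 ih =>
    obtain ⟨U, F, hG, hcard⟩ := ih (by omega)
    have hU : U ≠ Finset.univ := by
      intro hU
      rw [hU, Finset.card_univ] at hcard
      omega
    obtain ⟨w, e, hw, hG'⟩ := d7_step a b f d D hd hD hsplit hconn root U F hG hU
    exact ⟨insert w U, insert e F, hG', by rw [card_insert_of_notMem hw, hcard]⟩

/-- D7 -/
theorem good_exists (a b : E → V) (f : V → V) (d D : ℕ) (hd : 1 ≤ d)
    (hD : 4 * Fintype.card V ≤ d * D)
    (hsplit : ∀ (c : V) (U : Finset V), U ⊆ part f c → U.Nonempty → U ≠ part f c →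
      d * (U.card * (part f c \ U).card) ≤
        2 * Fintype.card V * pairs (Adj a b) U (part f c \ U))
    (hconn : ∀ S : Finset V, S.Nonempty → S ≠ Finset.univ → ∃ e, Cr a b S e) (root : V) :
    ∃ F : Finset E, Good a b f D root Finset.univ F := by
  have hpos : 1 ≤ Fintype.card V := Fintype.card_pos_iff.mpr ⟨root⟩
  obtain ⟨U, F, hG, hcard⟩ :=
    d7_grow a b f d D hd hD hsplit hconn root (Fintype.card V) hpos le_rfl
  have hU : U = Finset.univ := Finset.eq_univ_of_card U hcard
  rw [hU] at hG
  exact ⟨F, hG⟩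

end Vale.Agent.H17.Dense
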