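import Mathlib
import Vale.Agent.H17.Dense.Defs

/-! Row D2 (MERGE).  Let `f` minimise `phi R d`, `c1 ≠ c2`, `A = part f c1`, `B = part f c2`
(disjoint).  Let `g v = if f v = c2 then c1 else f v`.  For every pair `p`:
`[g p.1 = g p.2] = [f p.1 = f p.2] + [p ∈ A ×ˢ B] + [p ∈ B ×ˢ A]`, so
`phi g = phi f + 2 * ∑ p ∈ A ×ˢ B, (d - 2 n [R p.1 p.2])` (`R` symmetric), and `phi f ≤ phi g`
gives `2 n pairs R A B ≤ d |A| |B|`. -/

namespace Vale.Agent.H17.Dense

open Finset

variable {V : Type} [Fintype V] [DecidableEq V]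

/-- D2 -/
theorem phi_merge (R : V → V → Prop) [DecidableRel R] (hs : ∀ u v, R u v → R v u) (d : ℕ)
    (f : V → V) (hmin : ∀ g : V → V, phi R d f ≤ phi R d g) (c1 c2 : V) (h12 : c1 ≠ c2) :
    2 * Fintype.card V * pairs R (part f c1) (part f c2) ≤
      d * ((part f c1).card * (part f c2).card) := by
  classical
  set g : V → V := fun v => if f v = c2 then c1 else f v with hg
  set w : V × V → ℤ := fun p =>
    (d : ℤ) - 2 * (Fintype.card V : ℤ) * (if R p.1 p.2 then 1 else 0) with hw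
  have hpt : ∀ p : V × V, (if g p.1 = g p.2 then w p else 0) =
      (if f p.1 = f p.2 then w p else 0) + ((if f p.1 = c1 ∧ f p.2 = c2 then w p else 0) +
        (if f p.1 = c2 ∧ f p.2 = c1 then w p else 0)) := by
    intro p
    by_cases h1 : f p.1 = c2 <;> by_cases h2 : f p.2 = c2
    · have hgg : g p.1 = g p.2 := by simp [hg, h1, h2]
      have hff : f p.1 = f p.2 := by rw [h1, h2]
      have n1 : ¬ (f p.1 = c1 ∧ f p.2 = c2) := fun h => h12 (h.1.symm.trans h1)
      have n2 : ¬ (f p.1 = c2 ∧ f p.2 = c1) := fun h => h12 (h.2.symm.trans h2)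
      rw [if_pos hgg, if_pos hff, if_neg n1, if_neg n2]; ring
    · have hg1 : g p.1 = c1 := by simp [hg, h1]
      have hg2 : g p.2 = f p.2 := by simp [hg, h2]
      have hff : ¬ f p.1 = f p.2 := fun h => h2 (h.symm.trans h1)
      have n1 : ¬ (f p.1 = c1 ∧ f p.2 = c2) := fun h => h2 h.2
      by_cases h3 : f p.2 = c1
      · have hgg : g p.1 = g p.2 := by rw [hg1, hg2, h3]
        rw [if_pos hgg, if_neg hff, if_neg n1, if_pos ⟨h1, h3⟩]; ring
      · have hgg : ¬ g p.1 = g p.2 := by rw [hg1, hg2]; exact fun h => h3 h.symm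
        have n2 : ¬ (f p.1 = c2 ∧ f p.2 = c1) := fun h => h3 h.2
        rw [if_neg hgg, if_neg hff, if_neg n1, if_neg n2]; ring
    · have hg1 : g p.1 = f p.1 := by simp [hg, h1]
      have hg2 : g p.2 = c1 := by simp [hg, h2]
      have hff : ¬ f p.1 = f p.2 := fun h => h1 (h.trans h2)
      have n2 : ¬ (f p.1 = c2 ∧ f p.2 = c1) := fun h => h1 h.1
      by_cases h3 : f p.1 = c1
      · have hgg : g p.1 = g p.2 := by rw [hg1, hg2, h3]
        rw [if_pos hgg, if_neg hff, if_pos ⟨h3, h2⟩, if_neg n2]; ring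
      · have hgg : ¬ g p.1 = g p.2 := by rw [hg1, hg2]; exact h3
        have n1 : ¬ (f p.1 = c1 ∧ f p.2 = c2) := fun h => h3 h.1
        rw [if_neg hgg, if_neg hff, if_neg n1, if_neg n2]; ring
    · have hg1 : g p.1 = f p.1 := by simp [hg, h1]
      have hg2 : g p.2 = f p.2 := by simp [hg, h2]
      have n1 : ¬ (f p.1 = c1 ∧ f p.2 = c2) := fun h => h2 h.2
      have n2 : ¬ (f p.1 = c2 ∧ f p.2 = c1) := fun h => h1 h.1
      rw [hg1, hg2, if_neg n1, if_neg n2]; ring
  have hphig : phi R d g = phi R d f +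
      ((∑ p : V × V, if f p.1 = c1 ∧ f p.2 = c2 then w p else 0) +
        (∑ p : V × V, if f p.1 = c2 ∧ f p.2 = c1 then w p else 0)) := by
    unfold phi
    rw [← Finset.sum_add_distrib, ← Finset.sum_add_distrib]
    exact Finset.sum_congr rfl (fun p _ => hpt p)
  have hwsymm : ∀ p : V × V, w p.swap = w p := by
    intro p
    simp only [hw, Prod.fst_swap, Prod.snd_swap]
    by_cases hR : R p.1 p.2
    · rw [if_pos hR, if_pos (hs _ _ hR)]
    · have hR2 : ¬ R p.2 p.1 := fun h => hR (hs _ _ h)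
      rw [if_neg hR, if_neg hR2]
  have hS2 : (∑ p : V × V, if f p.1 = c2 ∧ f p.2 = c1 then w p else 0) =
      (∑ p : V × V, if f p.1 = c1 ∧ f p.2 = c2 then w p else 0) := by
    refine Fintype.sum_equiv (Equiv.prodComm V V) _ _ (fun p => ?_)
    show (if f p.1 = c2 ∧ f p.2 = c1 then w p else 0) =
      (if f p.swap.1 = c1 ∧ f p.swap.2 = c2 then w p.swap else 0)
    rw [hwsymm p]
    by_cases h : f p.1 = c2 ∧ f p.2 = c1
    · rw [if_pos h, if_pos]
      exact ⟨h.2, h.1⟩
    · rw [if_neg h, if_neg]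
      exact fun h3 => h ⟨h3.2, h3.1⟩
  have hS1 : (∑ p : V × V, if f p.1 = c1 ∧ f p.2 = c2 then w p else 0) =
      (d : ℤ) * (((part f c1).card : ℤ) * ((part f c2).card : ℤ)) -
        2 * (Fintype.card V : ℤ) * (pairs R (part f c1) (part f c2) : ℤ) := by
    have hfilter : (Finset.univ.filter fun p : V × V => f p.1 = c1 ∧ f p.2 = c2) =
        part f c1 ×ˢ part f c2 := by
      ext p
      simp [part]
    rw [← Finset.sum_filter, hfilter]
    simp only [hw]
    rw [Finset.sum_sub_distrib, Finset.sum_const, Finset.card_product, ← Finset.mul_sum]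
    have hb : (∑ p ∈ part f c1 ×ˢ part f c2, (if R p.1 p.2 then (1 : ℤ) else 0)) =
        (pairs R (part f c1) (part f c2) : ℤ) := by
      rw [Finset.sum_boole]
      rfl
    rw [hb]
    simp only [nsmul_eq_mul, Nat.cast_mul]
    ring
  have hle := hmin g
  rw [hphig, hS2, hS1] at hle
  have hfin : 2 * (Fintype.card V : ℤ) * (pairs R (part f c1) (part f c2) : ℤ) ≤
      (d : ℤ) * (((part f c1).card : ℤ) * ((part f c2).card : ℤ)) := by linarith
  exact_mod_cast hfin

end Vale.Agent.H17.Dense
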