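import Mathlib
import Vale.Agent.H17.Dense.Defs

/-! Row D3 (SIZE).  `A = part f (f v)`, `s = |A| ≥ 1`, `n = |V|`.  Every `u ∈ A` has at least
`d` `R`-neighbours, at most `s - 1` of them in `A` (`R` irreflexive), so
`s * d ≤ pairs R A Aᶜ + s * (s - 1)`.  The pairs of `A ×ˢ Aᶜ` split according to the colour
`c2 ≠ f v` of the second coordinate: `pairs R A Aᶜ = ∑ c2 ∈ univ.erase (f v), pairs R A (part f c2)`
and `∑ c2 ∈ univ.erase (f v), |part f c2| = n - s`; with `hmerge`:
`2 n pairs R A Aᶜ ≤ d s (n - s)`.  Hence `2 n s d ≤ d s (n - s) + 2 n s (s - 1)`, i.e.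
`n d + d s + 2 n ≤ 2 n s`, so `d + 2 ≤ 2 s`. -/

namespace Vale.Agent.H17.Dense

open Finset

variable {V : Type} [Fintype V] [DecidableEq V]

/-- D3 helper: the pairs starting in `A`, split by the colour of the second coordinate. -/
theorem d3_split (R : V → V → Prop) [DecidableRel R] (f : V → V) (A : Finset V) :
    ((A ×ˢ (Finset.univ : Finset V)).filter fun p => R p.1 p.2).card
      = ∑ c ∈ (Finset.univ : Finset V), pairs R A (part f c) := by
  rw [Finset.card_eq_sum_card_fiberwise (f := fun p : V × V => f p.2) (t := Finset.univ)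
    (fun _ _ => Finset.mem_univ _)]
  refine Finset.sum_congr rfl fun c _ => ?_
  unfold pairs
  congr 1
  ext p
  simp only [Finset.mem_filter, Finset.mem_product, Finset.mem_univ, and_true, part, true_and]
  tauto

omit [DecidableEq V] in
/-- D3 helper: the degree bound summed over `A`. -/
theorem d3_low (R : V → V → Prop) [DecidableRel R] (d : ℕ)
    (hdeg : ∀ v, d ≤ (Finset.univ.filter fun w => R v w).card) (A : Finset V) :
    A.card * d ≤ ((A ×ˢ (Finset.univ : Finset V)).filter fun p => R p.1 p.2).card := by
  rw [Finset.card_filter, Finset.sum_product]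
  calc A.card * d = ∑ _u ∈ A, d := by simp
    _ ≤ ∑ u ∈ A, ∑ w : V, if R u w then 1 else 0 := by
        refine Finset.sum_le_sum fun u _ => ?_
        rw [← Finset.card_filter]
        exact hdeg u

omit [Fintype V] [DecidableEq V] in
/-- D3 helper: the pairs inside `A`. -/
theorem d3_inside (R : V → V → Prop) [DecidableRel R] (hi : ∀ v, ¬ R v v) (A : Finset V) :
    pairs R A A + A.card ≤ A.card * A.card := by
  have h1 : pairs R A A ≤ A.offDiag.card := by
    unfold pairs
    refine Finset.card_le_card ?_
    intro p hp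
    simp only [Finset.mem_filter, Finset.mem_product] at hp
    rw [Finset.mem_offDiag]
    refine ⟨hp.1.1, hp.1.2, ?_⟩
    intro h
    apply hi p.1
    have h2 := hp.2
    rwa [← h] at h2
  rw [Finset.offDiag_card] at h1
  have h3 : A.card ≤ A.card * A.card := Nat.le_mul_self _
  omega

/-- D3 helper: the colour classes partition the vertex set. -/
theorem d3_total (f : V → V) :
    ∑ c ∈ (Finset.univ : Finset V), (part f c).card = Fintype.card V := by
  rw [← Finset.card_univ]
  exact (Finset.card_eq_sum_card_fiberwise (f := f) (s := Finset.univ) (t := Finset.univ)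
    (fun _ _ => Finset.mem_univ _)).symm

/-- D3 -/
theorem part_size (R : V → V → Prop) [DecidableRel R] (hi : ∀ v, ¬ R v v) (d : ℕ)
    (hd : 1 ≤ d) (hdeg : ∀ v, d ≤ (Finset.univ.filter fun w => R v w).card) (f : V → V)
    (hmerge : ∀ c1 c2 : V, c1 ≠ c2 →
      2 * Fintype.card V * pairs R (part f c1) (part f c2) ≤
        d * ((part f c1).card * (part f c2).card))
    (v : V) : d + 2 ≤ 2 * (part f (f v)).card := by
  have hvA : v ∈ part f (f v) := by simp [part]
  have hs1 : 0 < (part f (f v)).card := Finset.card_pos.mpr ⟨v, hvA⟩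
  have hsplit := d3_split R f (part f (f v))
  have hlow := d3_low R d hdeg (part f (f v))
  have hin := d3_inside R hi (part f (f v))
  have hQ := d3_total f
  have hT := Finset.add_sum_erase (Finset.univ : Finset V)
    (fun c => pairs R (part f (f v)) (part f c)) (Finset.mem_univ (f v))
  have hQ2 := Finset.add_sum_erase (Finset.univ : Finset V)
    (fun c => (part f c).card) (Finset.mem_univ (f v))
  have hmer : 2 * Fintype.card V *
      ∑ c ∈ (Finset.univ : Finset V).erase (f v), pairs R (part f (f v)) (part f c) ≤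
      d * ((part f (f v)).card * ∑ c ∈ (Finset.univ : Finset V).erase (f v), (part f c).card) := by
    rw [Finset.mul_sum, Finset.mul_sum, Finset.mul_sum]
    refine Finset.sum_le_sum fun c hc => ?_
    have hne : f v ≠ c := (Finset.ne_of_mem_erase hc).symm
    exact hmerge (f v) c hne
  generalize (∑ c ∈ (Finset.univ : Finset V).erase (f v), pairs R (part f (f v)) (part f c)) = T
    at hT hmer
  generalize (∑ c ∈ (Finset.univ : Finset V).erase (f v), (part f c).card) = Q at hQ2 hmer
  generalize pairs R (part f (f v)) (part f (f v)) = P0 at hT hin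
  generalize (part f (f v)).card = s at *
  generalize Fintype.card V = n at *
  rw [← hT] at hsplit
  rw [hsplit] at hlow
  rw [hQ] at hQ2
  subst hQ2
  have key : s * (2 * (s + Q) * d + 2 * (s + Q)) ≤ s * (2 * (s + Q) * s + d * Q) := by
    nlinarith [Nat.mul_le_mul_left (2 * (s + Q)) hlow, Nat.mul_le_mul_left (2 * (s + Q)) hin,
      hmer]
  have key2 : 2 * (s + Q) * d + 2 * (s + Q) ≤ 2 * (s + Q) * s + d * Q :=
    Nat.le_of_mul_le_mul_left key hs1
  have key3 : (s + Q) * (d + 2) ≤ (s + Q) * (2 * s) := by
    nlinarith [Nat.zero_le (s * d)]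
  exact Nat.le_of_mul_le_mul_left key3 (by omega)

end Vale.Agent.H17.Dense
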