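import Mathlib
import Vale.Agent.H17.Dense.Defs

/-! Row D14 (the grown edge set is a spanning tree).  `G.IsSpanningTree T` is
`T.ncard + 1 = Nat.card V ∧ (G.toSimple T).Connected`.  Cardinality: `hg.card_eq` with
`Set.ncard_coe_finset`, `Finset.card_univ`, `Nat.card_eq_fintype_card`.  Connected: every
vertex is reachable from `root`: `hg.reach` gives `Relation.ReflTransGen (AdjIn a b F) root u`;
an `AdjIn a b F x y` step is an adjacency of `G.toSimple F` (`x ≠ y` because `a e ≠ b e`, and
`G.ends e = s(x, y)` up to `Sym2.eq_swap`); `SimpleGraph.reachable_iff_reflTransGen`,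
`Relation.ReflTransGen.mono`; then `SimpleGraph.Connected` from reachability to a fixed
vertex (`Reachable.symm`, `Reachable.trans`). -/

namespace Vale.Agent.H17.Dense

open Finset Vale.Agent.H17.ThinTree

variable {V E : Type} [Fintype V] [DecidableEq V] [Fintype E] [DecidableEq E]

/-- D14 -/
theorem spanning_of_good (G : MGraph V E) (a b : E → V)
    (hab : ∀ e, G.ends e = s(a e, b e)) (hne : ∀ e, a e ≠ b e) (f : V → V) (D : ℕ) (root : V)
    (F : Finset E) (hg : Good a b f D root Finset.univ F) :
    G.IsSpanningTree (F : Set E) := by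
  refine ⟨?_, ?_⟩
  · rw [Set.ncard_coe_finset, hg.card_eq, Finset.card_univ, Nat.card_eq_fintype_card]
  · have hreach : ∀ u, (G.toSimple (F : Set E)).Reachable root u := by
      intro u
      have h := hg.reach u (Finset.mem_univ u)
      rw [SimpleGraph.reachable_iff_reflTransGen]
      refine Relation.ReflTransGen.mono ?_ _ _ h
      intro x y hxy
      obtain ⟨e, heF, h1 | h1⟩ := hxy
      · obtain ⟨rfl, rfl⟩ := h1
        exact ⟨hne e, e, Finset.mem_coe.mpr heF, hab e⟩
      · obtain ⟨rfl, rfl⟩ := h1
        exact ⟨(hne e).symm, e, Finset.mem_coe.mpr heF, by rw [hab e, Sym2.eq_swap]⟩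
    exact (SimpleGraph.connected_iff _).mpr
      ⟨fun u v => (hreach u).symm.trans (hreach v), ⟨root⟩⟩

end Vale.Agent.H17.Dense
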