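import Mathlib
import Vale.Agent.H17.Dense.Defs

/-! Row D1 (SPLIT).  Let `f` minimise `phi R d`.  For a colour `c` and a nonempty proper
subset `U` of `part f c` put `W = part f c \ U`.  As `part f c` has at least two elements,
`f` is not injective, hence not surjective (`Finite.injective_iff_surjective`): some colour
`c'` is unused.  Let `g v = if v ∈ U then c' else f v`.  For every pair `p`:
`[g p.1 = g p.2] = [f p.1 = f p.2] - [p ∈ U ×ˢ W] - [p ∈ W ×ˢ U]` (four cases), so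
`phi g = phi f - 2 * ∑ p ∈ U ×ˢ W, (d - 2 n [R p.1 p.2])` (`R` symmetric; swap the product),
and `phi f ≤ phi g` gives `d |U| |W| ≤ 2 n pairs R U W`. -/

namespace Vale.Agent.H17.Dense

open Finset

variable {V : Type} [Fintype V] [DecidableEq V]

/-- D1 -/
theorem phi_split (R : V → V → Prop) [DecidableRel R] (hs : ∀ u v, R u v → R v u) (d : ℕ)
    (f : V → V) (hmin : ∀ g : V → V, phi R d f ≤ phi R d g) (c : V) (U : Finset V)
    (hU : U ⊆ part f c) (hne : U.Nonempty) (hU2 : U ≠ part f c) :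
    d * (U.card * (part f c \ U).card) ≤ 2 * Fintype.card V * pairs R U (part f c \ U) := by
  classical
  obtain ⟨W, hWdef⟩ : ∃ W : Finset V, W = part f c \ U := ⟨_, rfl⟩
  rw [← hWdef]
  have hUc : ∀ v ∈ U, f v = c := by
    intro v hv
    have h1 := hU hv
    rw [part, Finset.mem_filter] at h1
    exact h1.2
  have hWmem : ∀ v, v ∈ W ↔ f v = c ∧ v ∉ U := by
    intro v
    rw [hWdef, Finset.mem_sdiff, part, Finset.mem_filter]
    simp
  have hWne : W.Nonempty := by
    rw [hWdef, Finset.sdiff_nonempty]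
    intro hsub
    exact hU2 (Finset.Subset.antisymm hU hsub)
  obtain ⟨u0, hu0⟩ := hne
  obtain ⟨w0, hw0⟩ := hWne
  have hw0' := (hWmem w0).mp hw0
  have hninj : ¬ Function.Injective f := by
    intro hinj
    have h1 : u0 = w0 := hinj ((hUc u0 hu0).trans hw0'.1.symm)
    rw [h1] at hu0
    exact hw0'.2 hu0
  have hnsurj : ¬ Function.Surjective f :=
    fun hs' => hninj (Finite.injective_iff_surjective.mpr hs')
  obtain ⟨c', hc'⟩ : ∃ c', ∀ v, f v ≠ c' := by
    by_contra hno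
    push Not at hno
    exact hnsurj (fun y => hno y)
  obtain ⟨g, hg⟩ : ∃ g : V → V, g = fun v => if v ∈ U then c' else f v := ⟨_, rfl⟩
  have hgU : ∀ v ∈ U, g v = c' := by
    intro v hv
    rw [hg]
    simp [hv]
  have hgN : ∀ v, v ∉ U → g v = f v := by
    intro v hv
    rw [hg]
    simp [hv]
  obtain ⟨w, hw⟩ : ∃ w : V × V → ℤ, w = fun p =>
      (d : ℤ) - 2 * (Fintype.card V : ℤ) * (if R p.1 p.2 then 1 else 0) := ⟨_, rfl⟩
  have hphi : ∀ k : V → V, phi R d k = ∑ p : V × V, if k p.1 = k p.2 then w p else 0 := by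
    intro k
    rw [hw]
    rfl
  have hpt : ∀ p : V × V, (if g p.1 = g p.2 then w p else 0) =
      (if f p.1 = f p.2 then w p else 0) - (if p ∈ U ×ˢ W then w p else 0)
        - (if p ∈ W ×ˢ U then w p else 0) := by
    intro p
    have m1 : p ∈ U ×ˢ W ↔ p.1 ∈ U ∧ (f p.2 = c ∧ p.2 ∉ U) := by
      rw [Finset.mem_product, hWmem]
    have m2 : p ∈ W ×ˢ U ↔ (f p.1 = c ∧ p.1 ∉ U) ∧ p.2 ∈ U := by
      rw [Finset.mem_product, hWmem]
    by_cases h1 : p.1 ∈ U <;> by_cases h2 : p.2 ∈ U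
    · have e1 := hUc _ h1
      have e2 := hUc _ h2
      have n1 : ¬ (p ∈ U ×ˢ W) := fun h => (m1.mp h).2.2 h2
      have n2 : ¬ (p ∈ W ×ˢ U) := fun h => (m2.mp h).1.2 h1
      rw [hgU _ h1, hgU _ h2, e1, e2, if_pos rfl, if_pos rfl, if_neg n1, if_neg n2]
      ring
    · have e1 := hUc _ h1
      have hne' : ¬ (c' = f p.2) := fun h => hc' p.2 h.symm
      have n2 : ¬ (p ∈ W ×ˢ U) := fun h => (m2.mp h).1.2 h1
      rw [hgU _ h1, hgN _ h2, e1, if_neg hne', if_neg n2]
      by_cases h3 : f p.2 = c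
      · have y1 : p ∈ U ×ˢ W := m1.mpr ⟨h1, h3, h2⟩
        rw [if_pos h3.symm, if_pos y1]
        ring
      · have n1 : ¬ (p ∈ U ×ˢ W) := fun h => h3 (m1.mp h).2.1
        rw [if_neg (fun h => h3 h.symm), if_neg n1]
        ring
    · have e2 := hUc _ h2
      have hne' : ¬ (f p.1 = c') := fun h => hc' p.1 h
      have n1 : ¬ (p ∈ U ×ˢ W) := fun h => (m1.mp h).2.2 h2
      rw [hgN _ h1, hgU _ h2, e2, if_neg hne', if_neg n1]
      by_cases h3 : f p.1 = c
      · have y2 : p ∈ W ×ˢ U := m2.mpr ⟨⟨h3, h1⟩, h2⟩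
        rw [if_pos h3, if_pos y2]
        ring
      · have n2 : ¬ (p ∈ W ×ˢ U) := fun h => h3 (m2.mp h).1.1
        rw [if_neg h3, if_neg n2]
        ring
    · have n1 : ¬ (p ∈ U ×ˢ W) := fun h => h1 (m1.mp h).1
      have n2 : ¬ (p ∈ W ×ˢ U) := fun h => h2 (m2.mp h).2
      rw [hgN _ h1, hgN _ h2, if_neg n1, if_neg n2]
      ring
  have hsum : phi R d g = phi R d f - ∑ p ∈ U ×ˢ W, w p - ∑ p ∈ W ×ˢ U, w p := by
    rw [hphi g, hphi f]
    simp only [hpt]
    rw [Finset.sum_sub_distrib, Finset.sum_sub_distrib, Fintype.sum_ite_mem,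
      Fintype.sum_ite_mem]
  have hswap : ∑ p ∈ W ×ˢ U, w p = ∑ p ∈ U ×ˢ W, w p := by
    rw [Finset.sum_product, Finset.sum_product, Finset.sum_comm]
    apply Finset.sum_congr rfl
    intro x _
    apply Finset.sum_congr rfl
    intro y _
    rw [hw]
    have hiff : R y x ↔ R x y := ⟨hs y x, hs x y⟩
    simp only [hiff]
  have hval : ∑ p ∈ U ×ˢ W, w p = (d : ℤ) * ((U.card : ℤ) * (W.card : ℤ))
      - 2 * (Fintype.card V : ℤ) * (pairs R U W : ℤ) := by
    rw [hw, Finset.sum_sub_distrib, Finset.sum_const, Finset.card_product, ← Finset.mul_sum,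
      Finset.sum_boole, pairs]
    simp only [nsmul_eq_mul]
    push_cast
    ring
  have hfin := hmin g
  rw [hsum, hswap, hval] at hfin
  have hint : (d : ℤ) * ((U.card : ℤ) * (W.card : ℤ)) ≤
      2 * (Fintype.card V : ℤ) * (pairs R U W : ℤ) := by linarith
  exact_mod_cast hint

end Vale.Agent.H17.Dense
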