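import Mathlib
import Vale.Agent.H17.Dense.Defs
import Vale.Agent.H17.Dense.Split
import Vale.Agent.H17.Dense.Merge
import Vale.Agent.H17.Dense.Size
import Vale.Agent.H17.Dense.Grow
import Vale.Agent.H17.Dense.Count
import Vale.Agent.H17.Dense.Trans
import Vale.Agent.H17.Dense.Deg
import Vale.Agent.H17.Dense.Span

/-!
Thin trees in dense simple graphs: assembly of the core theorem from the rows D1 to D14.
-/

namespace Vale.Agent.H17.Dense

open Finset Vale.Agent.H17.ThinTree

variable {V E : Type} [Fintype V] [DecidableEq V] [Fintype E] [DecidableEq E]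

/-- A minimiser of the potential: every colour class expands (SPLIT) and is large (SIZE). -/
theorem exists_partition (R : V → V → Prop) [DecidableRel R] (hs : ∀ u v, R u v → R v u)
    (hi : ∀ v, ¬ R v v) (d : ℕ) (hd : 1 ≤ d)
    (hdeg : ∀ v, d ≤ (Finset.univ.filter fun w => R v w).card) :
    ∃ f : V → V,
      (∀ (c : V) (U : Finset V), U ⊆ part f c → U.Nonempty → U ≠ part f c →
        d * (U.card * (part f c \ U).card) ≤ 2 * Fintype.card V * pairs R U (part f c \ U)) ∧
      (∀ v : V, d + 2 ≤ 2 * (part f (f v)).card) := by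
  obtain ⟨f, -, hf⟩ := Finset.exists_min_image (Finset.univ : Finset (V → V)) (phi R d)
    ⟨id, Finset.mem_univ _⟩
  have hmin : ∀ g, phi R d f ≤ phi R d g := fun g => hf g (Finset.mem_univ _)
  exact ⟨f, fun c U hU hne hU2 => phi_split R hs d f hmin c U hU hne hU2,
    fun v => part_size R hi d hd hdeg f
      (fun c1 c2 h12 => phi_merge R hs d f hmin c1 c2 h12) v⟩

/-- End points of the edge copies. -/
theorem exists_ends (G : MGraph V E) :
    ∃ a b : E → V, (∀ e, G.ends e = s(a e, b e)) ∧ (∀ e, a e ≠ b e) := by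
  have h : ∀ e, ∃ p : V × V, G.ends e = s(p.1, p.2) := by
    intro e
    obtain ⟨⟨x, y⟩, hxy⟩ := Quot.exists_rep (G.ends e)
    exact ⟨(x, y), hxy.symm⟩
  choose p hp using h
  refine ⟨fun e => (p e).1, fun e => (p e).2, hp, ?_⟩
  intro e hab
  have h1 := G.loopless e
  rw [hp e] at h1
  exact h1 (by simpa using hab)

/-- The core theorem in natural-number form. -/
theorem dense_core (G : MGraph V E) (k : ℕ) (hk1 : 1 ≤ k) (hV : 2 ≤ Fintype.card V)
    (hinj : Function.Injective G.ends) (hk : G.EdgeConnected k) :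
    k < Fintype.card V ∧
    ∃ F : Finset E, G.IsSpanningTree (F : Set E) ∧
      ∀ S : Finset V, S.Nonempty → S ≠ Finset.univ →
        k * k * k * G.cutCount (F : Set E) (S : Set V) ≤
          (8 * Fintype.card V * (4 * Fintype.card V / k + 1) * k + 2 * Fintype.card V * k) *
            G.cutCount Set.univ (S : Set V) := by
  obtain ⟨a, b, hab, hne⟩ := exists_ends G
  have hs : ∀ u v, Adj a b u v → Adj a b v u := by
    rintro u v ⟨e, he⟩
    exact ⟨e, he.symm⟩
  have hi : ∀ v, ¬ Adj a b v v := by
    rintro v ⟨e, he⟩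
    rcases he with ⟨h1, h2⟩ | ⟨h1, h2⟩ <;> exact hne e (h1.trans h2.symm)
  have hdeg : ∀ v, k ≤ (Finset.univ.filter fun w => Adj a b v w).card :=
    fun v => deg_of_edgeConnected G a b hab hinj k hk hV v
  have hcard : 0 < Fintype.card V := by omega
  obtain ⟨root⟩ : Nonempty V := Fintype.card_pos_iff.mp hcard
  refine ⟨?_, ?_⟩
  · have h1 : (Finset.univ.filter fun w => Adj a b root w) ⊆ Finset.univ.erase root := by
      intro w hw
      rw [Finset.mem_filter] at hw
      rw [Finset.mem_erase]
      refine ⟨?_, Finset.mem_univ _⟩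
      rintro rfl
      exact hi _ hw.2
    have h2 := Finset.card_le_card h1
    rw [Finset.card_erase_of_mem (Finset.mem_univ _), Finset.card_univ] at h2
    have h3 := hdeg root
    omega
  obtain ⟨f, hsplit, hsize⟩ := exists_partition (Adj a b) hs hi k hk1 hdeg
  have hD : 4 * Fintype.card V ≤ k * (4 * Fintype.card V / k + 1) :=
    (Nat.lt_mul_div_succ _ (by omega)).le
  obtain ⟨F, hg⟩ := good_exists a b f k (4 * Fintype.card V / k + 1) hk1 hD hsplit
    (fun S hS hS2 => conn_of_edgeConnected G a b hab k hk1 hk S hS hS2) root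
  refine ⟨F, spanning_of_good G a b hab hne f _ root F hg, ?_⟩
  intro S hS hS2
  rw [cutCount_eq G a b hab, cutCount_univ_eq G a b hab]
  refine thin_count a b f k _ k F hsplit hsize hg.deg_le ?_ S ?_
  · have := hg.cross_le
    exact this
  · have h1 := hk (S : Set V) (by exact_mod_cast hS) (by
      intro h
      apply hS2
      exact_mod_cast h)
    rw [cutCount_univ_eq G a b hab] at h1
    exact h1

end Vale.Agent.H17.Dense
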