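import Mathlib
import Vale.Agent.H17.Dense.Main

/-!
Thin trees in graphs of large minimum degree: the core theorem with the number `d` of distinct
neighbours of every vertex as a parameter separate from the edge connectivity `k`.
-/

namespace Vale.Agent.H17.Dense

open Finset Vale.Agent.H17.ThinTree

variable {V E : Type} [Fintype V] [DecidableEq V] [Fintype E] [DecidableEq E]

/-- The neighbours of `v` in `G.toSimple Set.univ` are the `Adj a b`-neighbours. -/
theorem nbrs_eq (G : MGraph V E) (a b : E → V) (hab : ∀ e, G.ends e = s(a e, b e))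
    (hne : ∀ e, a e ≠ b e) (v : V) :
    Set.ncard {w : V | (G.toSimple Set.univ).Adj v w} =
      (Finset.univ.filter fun w => Adj a b v w).card := by
  rw [← Set.ncard_coe_finset]
  congr 1
  ext w
  simp only [Set.mem_setOf_eq, Finset.coe_filter, Finset.mem_univ, true_and]
  constructor
  · rintro ⟨-, e, -, he⟩
    rw [hab e] at he
    refine ⟨e, ?_⟩
    rcases Sym2.eq_iff.mp he with h | h
    · exact Or.inl h
    · exact Or.inr h
  · rintro ⟨e, he⟩
    refine ⟨?_, e, Set.mem_univ _, ?_⟩
    · rintro rfl
      rcases he with ⟨h1, h2⟩ | ⟨h1, h2⟩ <;> exact hne e (h1.trans h2.symm)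
    · rw [hab e]
      rcases he with ⟨h1, h2⟩ | ⟨h1, h2⟩
      · rw [h1, h2]
      · rw [h1, h2, Sym2.eq_swap]

/-- A vertex has fewer than `|V|` neighbours. -/
theorem nbrs_lt (G : MGraph V E) (v : V) :
    Set.ncard {w : V | (G.toSimple Set.univ).Adj v w} < Fintype.card V := by
  have h1 : {w : V | (G.toSimple Set.univ).Adj v w} ⊆
      (((Finset.univ : Finset V).erase v : Finset V) : Set V) := by
    intro w hw
    have hw' : (G.toSimple Set.univ).Adj v w := hw
    simp only [Finset.coe_erase, Finset.coe_univ, Set.mem_diff, Set.mem_univ,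
      Set.mem_singleton_iff, true_and]
    rintro rfl
    exact (G.toSimple Set.univ).loopless.irrefl _ hw'
  have h2 := Set.ncard_le_ncard h1 (Finset.finite_toSet _)
  rw [Set.ncard_coe_finset, Finset.card_erase_of_mem (Finset.mem_univ _), Finset.card_univ] at h2
  have h3 : 0 < Fintype.card V := Fintype.card_pos_iff.mpr ⟨v⟩
  omega

/-- In a simple `k`-edge-connected graph every vertex has at least `k` neighbours. -/
theorem simple_nbrs_ge (G : MGraph V E) (k : ℕ) (hV : 2 ≤ Fintype.card V)
    (hinj : Function.Injective G.ends) (hk : G.EdgeConnected k) (v : V) :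
    k ≤ Set.ncard {w : V | (G.toSimple Set.univ).Adj v w} := by
  obtain ⟨a, b, hab, hne⟩ := exists_ends G
  rw [nbrs_eq G a b hab hne v]
  exact deg_of_edgeConnected G a b hab hinj k hk hV v

/-- The core theorem with a separate minimum number `d` of distinct neighbours. -/
theorem dense_core_gen (G : MGraph V E) (k d : ℕ) (hk1 : 1 ≤ k) (hd1 : 1 ≤ d)
    (hV : 2 ≤ Fintype.card V) (hk : G.EdgeConnected k)
    (hdeg : ∀ v : V, d ≤ Set.ncard {w : V | (G.toSimple Set.univ).Adj v w}) :
    ∃ F : Finset E, G.IsSpanningTree (F : Set E) ∧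
      ∀ S : Finset V, S.Nonempty → S ≠ Finset.univ →
        d * d * k * G.cutCount (F : Set E) (S : Set V) ≤
          (8 * Fintype.card V * (4 * Fintype.card V / d + 1) * k + 2 * Fintype.card V * d) *
            G.cutCount Set.univ (S : Set V) := by
  obtain ⟨a, b, hab, hne⟩ := exists_ends G
  have hs : ∀ u v, Adj a b u v → Adj a b v u := by
    rintro u v ⟨e, he⟩
    exact ⟨e, he.symm⟩
  have hi : ∀ v, ¬ Adj a b v v := by
    rintro v ⟨e, he⟩
    rcases he with ⟨h1, h2⟩ | ⟨h1, h2⟩ <;> exact hne e (h1.trans h2.symm)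
  have hdeg' : ∀ v, d ≤ (Finset.univ.filter fun w => Adj a b v w).card := by
    intro v
    rw [← nbrs_eq G a b hab hne v]
    exact hdeg v
  have hcard : 0 < Fintype.card V := by omega
  obtain ⟨root⟩ : Nonempty V := Fintype.card_pos_iff.mp hcard
  obtain ⟨f, hsplit, hsize⟩ := exists_partition (Adj a b) hs hi d hd1 hdeg'
  have hD : 4 * Fintype.card V ≤ d * (4 * Fintype.card V / d + 1) :=
    (Nat.lt_mul_div_succ _ (by omega)).le
  obtain ⟨F, hg⟩ := good_exists a b f d (4 * Fintype.card V / d + 1) hd1 hD hsplit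
    (fun S hS hS2 => conn_of_edgeConnected G a b hab k hk1 hk S hS hS2) root
  refine ⟨F, spanning_of_good G a b hab hne f _ root F hg, ?_⟩
  intro S hS hS2
  rw [cutCount_eq G a b hab, cutCount_univ_eq G a b hab]
  refine thin_count a b f d _ k F hsplit hsize hg.deg_le hg.cross_le S ?_
  have h1 := hk (S : Set V) (by exact_mod_cast hS) (by
    intro h
    apply hS2
    exact_mod_cast h)
  rw [cutCount_univ_eq G a b hab] at h1
  exact h1

end Vale.Agent.H17.Dense
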