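import Mathlib
import Vale.Agent.H17.ThinTree
import Vale.Agent.H17.Dense.MinDeg

/-!
Thin trees in graphs of large minimum degree: the final real-number statements.

(i) Every `k`-edge-connected loopless multigraph on `n ≥ 2` vertices in which every vertex has
at least `d ≥ 1` distinct neighbours has a spanning tree `T` with
`|δ_T(S)| ≤ (32 n^2 / d^3 + 8 n / d^2 + 2 n / (d k)) |δ_G(S)|` for every nonempty proper `S`.
(ii) Every `k`-edge-connected simple graph on `n ≥ 2` vertices in which every vertex has at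
least `ε n` neighbours has a `((42/ε^2)/k)`-thin spanning tree.
-/

namespace Vale.Agent.H17.Dense

open Vale.Agent.H17.ThinTree

theorem mindeg_result :
    (∀ (V E : Type) [Fintype V] [Fintype E] (G : MGraph V E) (k d : ℕ),
      1 ≤ k → 1 ≤ d → 2 ≤ Fintype.card V → G.EdgeConnected k →
      (∀ v : V, d ≤ Set.ncard {w : V | (G.toSimple Set.univ).Adj v w}) →
      ∃ T : Set E, G.IsSpanningTree T ∧
        G.IsThin T
          (32 * (Fintype.card V : ℝ) ^ 2 / (d : ℝ) ^ 3 + 8 * (Fintype.card V : ℝ) / (d : ℝ) ^ 2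
            + 2 * (Fintype.card V : ℝ) / ((d : ℝ) * k))) ∧
    (∀ (V E : Type) [Fintype V] [Fintype E] (G : MGraph V E) (k : ℕ),
      1 ≤ k → 2 ≤ Fintype.card V → Function.Injective G.ends → G.EdgeConnected k →
      ∀ ε : ℝ, 0 < ε →
      (∀ v : V, ε * (Fintype.card V : ℝ) ≤
        (Set.ncard {w : V | (G.toSimple Set.univ).Adj v w} : ℝ)) →
      ∃ T : Set E, G.IsSpanningTree T ∧ G.IsThin T (42 / ε ^ 2 / k)) := by
  have part1 : ∀ (V E : Type) [Fintype V] [Fintype E] (G : MGraph V E) (k d : ℕ),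
      1 ≤ k → 1 ≤ d → 2 ≤ Fintype.card V → G.EdgeConnected k →
      (∀ v : V, d ≤ Set.ncard {w : V | (G.toSimple Set.univ).Adj v w}) →
      ∃ T : Set E, G.IsSpanningTree T ∧
        G.IsThin T
          (32 * (Fintype.card V : ℝ) ^ 2 / (d : ℝ) ^ 3 + 8 * (Fintype.card V : ℝ) / (d : ℝ) ^ 2
            + 2 * (Fintype.card V : ℝ) / ((d : ℝ) * k)) := by
    intro V E _ _ G k d hk1 hd1 hV hk hdeg
    classical
    obtain ⟨F, hF, hcut⟩ := dense_core_gen G k d hk1 hd1 hV hk hdeg
    refine ⟨F, hF, ?_⟩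
    have hkpos : (0 : ℝ) < (k : ℝ) := by exact_mod_cast hk1
    have hdpos : (0 : ℝ) < (d : ℝ) := by exact_mod_cast hd1
    intro S hS hS2
    have h := hcut S.toFinset (by simpa using hS) (by
      intro h
      apply hS2
      have h2 : ((S.toFinset : Finset V) : Set V) = ((Finset.univ : Finset V) : Set V) := by
        rw [h]
      simpa using h2)
    simp only [Set.coe_toFinset] at h
    have hq : 4 * Fintype.card V / d * d ≤ 4 * Fintype.card V := Nat.div_mul_le_self _ _
    have h2 : d * d * d * k * G.cutCount (F : Set E) S ≤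
        (32 * Fintype.card V * Fintype.card V * k + 8 * Fintype.card V * d * k +
          2 * Fintype.card V * d * d) * G.cutCount Set.univ S := by
      have h3 : d * (d * d * k * G.cutCount (F : Set E) S) ≤
          d * ((8 * Fintype.card V * (4 * Fintype.card V / d + 1) * k +
            2 * Fintype.card V * d) * G.cutCount Set.univ S) := Nat.mul_le_mul_left _ h
      have h4 : d * (8 * Fintype.card V * (4 * Fintype.card V / d + 1) * k +
            2 * Fintype.card V * d) ≤
          32 * Fintype.card V * Fintype.card V * k + 8 * Fintype.card V * d * k +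
          2 * Fintype.card V * d * d := by
        have h5 : d * (8 * Fintype.card V * (4 * Fintype.card V / d + 1) * k +
            2 * Fintype.card V * d) =
            8 * Fintype.card V * k * (4 * Fintype.card V / d * d) + 8 * Fintype.card V * d * k +
              2 * Fintype.card V * d * d := by ring
        rw [h5]
        have h6 : 8 * Fintype.card V * k * (4 * Fintype.card V / d * d) ≤
            8 * Fintype.card V * k * (4 * Fintype.card V) := Nat.mul_le_mul_left _ hq
        nlinarith [h6]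
      calc d * d * d * k * G.cutCount (F : Set E) S
          = d * (d * d * k * G.cutCount (F : Set E) S) := by ring
        _ ≤ d * ((8 * Fintype.card V * (4 * Fintype.card V / d + 1) * k +
            2 * Fintype.card V * d) * G.cutCount Set.univ S) := h3
        _ = d * (8 * Fintype.card V * (4 * Fintype.card V / d + 1) * k +
            2 * Fintype.card V * d) * G.cutCount Set.univ S := by ring
        _ ≤ _ := Nat.mul_le_mul_right _ h4
    have h5 : (d : ℝ) * d * d * k * (G.cutCount (F : Set E) S : ℝ) ≤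
        (32 * (Fintype.card V : ℝ) * (Fintype.card V : ℝ) * k +
          8 * (Fintype.card V : ℝ) * d * k + 2 * (Fintype.card V : ℝ) * d * d) *
          (G.cutCount Set.univ S : ℝ) := by exact_mod_cast h2
    have h6 : (32 * (Fintype.card V : ℝ) ^ 2 / (d : ℝ) ^ 3 + 8 * (Fintype.card V : ℝ) / (d : ℝ) ^ 2
            + 2 * (Fintype.card V : ℝ) / ((d : ℝ) * k)) * (G.cutCount Set.univ S : ℝ) =
        (32 * (Fintype.card V : ℝ) * (Fintype.card V : ℝ) * k +
          8 * (Fintype.card V : ℝ) * d * k + 2 * (Fintype.card V : ℝ) * d * d) *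
          (G.cutCount Set.univ S : ℝ) / ((d : ℝ) * d * d * k) := by
      field_simp
    rw [h6, le_div_iff₀ (by positivity)]
    linarith
  refine ⟨part1, ?_⟩
  intro V E _ _ G k hk1 hV hinj hk ε hε hdeg
  classical
  have hn : (0 : ℝ) < (Fintype.card V : ℝ) := by
    have : 0 < Fintype.card V := by omega
    exact_mod_cast this
  have hkpos : (0 : ℝ) < (k : ℝ) := by exact_mod_cast hk1
  -- the parameter `d`
  obtain ⟨d, hdk, hdε, hdle⟩ : ∃ d : ℕ, k ≤ d ∧ ε * (Fintype.card V : ℝ) ≤ (d : ℝ) ∧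
      ∀ v : V, d ≤ Set.ncard {w : V | (G.toSimple Set.univ).Adj v w} := by
    refine ⟨max k ⌈ε * (Fintype.card V : ℝ)⌉₊, le_max_left _ _, ?_, ?_⟩
    · exact le_trans (Nat.le_ceil _) (by exact_mod_cast le_max_right _ _)
    · intro v
      refine max_le (simple_nbrs_ge G k hV hinj hk v) ?_
      exact Nat.ceil_le.mpr (hdeg v)
  have hd1 : 1 ≤ d := le_trans hk1 hdk
  have hdpos : (0 : ℝ) < (d : ℝ) := by exact_mod_cast hd1
  obtain ⟨T, hT, hthin⟩ := part1 V E G k d hk1 hd1 hV hk hdle
  refine ⟨T, hT, ?_⟩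
  -- `d < n`
  obtain ⟨v0⟩ : Nonempty V := Fintype.card_pos_iff.mp (by omega)
  have hdn : (d : ℝ) < (Fintype.card V : ℝ) := by
    have h1 := hdle v0
    have h2 := nbrs_lt G v0
    exact_mod_cast lt_of_le_of_lt h1 h2
  have hε1 : ε < 1 := by
    by_contra hcon
    have : (Fintype.card V : ℝ) ≤ ε * (Fintype.card V : ℝ) := by nlinarith
    linarith
  have hkd : (k : ℝ) ≤ (d : ℝ) := by exact_mod_cast hdk
  -- t = n / d ≤ 1 / ε,  1 / d ≤ 1 / k
  have ht : (Fintype.card V : ℝ) / d ≤ 1 / ε := by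
    rw [div_le_div_iff₀ hdpos hε]
    linarith
  have ht0 : 0 < (Fintype.card V : ℝ) / d := by positivity
  have hs1 : 1 ≤ 1 / ε := by
    rw [le_div_iff₀ hε]
    linarith
  have hinv : 1 / (d : ℝ) ≤ 1 / (k : ℝ) := one_div_le_one_div_of_le hkpos hkd
  have hinv0 : 0 < 1 / (d : ℝ) := by positivity
  have hA : 32 * (Fintype.card V : ℝ) ^ 2 / (d : ℝ) ^ 3 + 8 * (Fintype.card V : ℝ) / (d : ℝ) ^ 2
            + 2 * (Fintype.card V : ℝ) / ((d : ℝ) * k) ≤ 42 / ε ^ 2 / k := by
    have e1 : 32 * (Fintype.card V : ℝ) ^ 2 / (d : ℝ) ^ 3 =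
        32 * ((Fintype.card V : ℝ) / d) ^ 2 * (1 / (d : ℝ)) := by
      field_simp
    have e2 : 8 * (Fintype.card V : ℝ) / (d : ℝ) ^ 2 =
        8 * ((Fintype.card V : ℝ) / d) * (1 / (d : ℝ)) := by
      field_simp
    have e3 : 2 * (Fintype.card V : ℝ) / ((d : ℝ) * k) =
        2 * ((Fintype.card V : ℝ) / d) * (1 / (k : ℝ)) := by
      field_simp
    have e4 : 42 / ε ^ 2 / k = 42 * (1 / ε) ^ 2 * (1 / (k : ℝ)) := by
      field_simp
    rw [e1, e2, e3, e4]
    have hk0 : 0 < 1 / (k : ℝ) := by positivity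
    have b1 : 32 * ((Fintype.card V : ℝ) / d) ^ 2 * (1 / (d : ℝ)) ≤
        32 * (1 / ε) ^ 2 * (1 / (k : ℝ)) := by
      have : ((Fintype.card V : ℝ) / d) ^ 2 ≤ (1 / ε) ^ 2 := by
        exact pow_le_pow_left₀ ht0.le ht 2
      gcongr
    have b2 : 8 * ((Fintype.card V : ℝ) / d) * (1 / (d : ℝ)) ≤
        8 * (1 / ε) * (1 / (k : ℝ)) := by
      gcongr
    have b3 : 2 * ((Fintype.card V : ℝ) / d) * (1 / (k : ℝ)) ≤
        2 * (1 / ε) * (1 / (k : ℝ)) := by
      gcongr
    have b4 : 32 * (1 / ε) ^ 2 * (1 / (k : ℝ)) + 8 * (1 / ε) * (1 / (k : ℝ)) +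
        2 * (1 / ε) * (1 / (k : ℝ)) ≤ 42 * (1 / ε) ^ 2 * (1 / (k : ℝ)) := by
      have : 32 * (1 / ε) ^ 2 + 8 * (1 / ε) + 2 * (1 / ε) ≤ 42 * (1 / ε) ^ 2 := by nlinarith
      nlinarith
    linarith
  intro S hS hS2
  have h := hthin S hS hS2
  have hy : (0 : ℝ) ≤ (G.cutCount Set.univ S : ℝ) := Nat.cast_nonneg _
  refine le_trans h ?_
  gcongr

end Vale.Agent.H17.Dense
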